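import Vale.Agent.Helper16.KTVG.Plan
import Vale.Agent.Helper13.SwitchChain

/-!
# Switch chain on general graphs (problem P335): the block heat bath (module M3b-iii)

The fibre of the block label `labB u v w z` through a graph `G` of the state space is
`{G}` if the four block slots carry no alternating 4-cycle and `{G, switched G}` otherwise.
Consequences: the energy of the block heat bath is a quarter of the block switch energy,
and on the graphs with an alternating 4-cycle, block-then-outer averaging is the average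
over the part of the pair fibre with an alternating 4-cycle.
-/

namespace KTVG

namespace Blk

open Finset Vale.Agent.Helper13.Switch
open Classical

section Abstract

variable {X Λ Λ' Λ'' : Type*}

/-- conditional expectation as an average over an explicitly given class -/
theorem cexpL_of_class (Ω : Finset X) (lab : X → Λ) (f : X → ℝ) (x : X) (S : Finset X)
    (hS : ∀ y, y ∈ S ↔ (y ∈ Ω ∧ lab y = lab x)) :
    KTV.cexpL Ω lab f x = (∑ y ∈ S, f y) / (S.card : ℝ) := by
  have h : ∀ (inst : DecidablePred fun y => lab y = lab x),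
      @Finset.filter _ (fun y => lab y = lab x) inst Ω = S := by
    intro inst
    ext y
    rw [Finset.mem_filter, hS]
  unfold KTV.cexpL
  rw [h]

/-- a class with exactly two points -/
theorem cexpL_pair (Ω : Finset X) (lab : X → Λ) (f : X → ℝ) {x y : X} (hx : x ∈ Ω) (hy : y ∈ Ω)
    (hxy : x ≠ y) (hlab : lab y = lab x) (hcls : ∀ k ∈ Ω, lab k = lab x → k = x ∨ k = y) :
    KTV.cexpL Ω lab f x = (f x + f y) / 2 := by
  have hS : ∀ k, k ∈ ({x, y} : Finset X) ↔ (k ∈ Ω ∧ lab k = lab x) := by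
    intro k
    rw [Finset.mem_insert, Finset.mem_singleton]
    constructor
    · rintro (h | h)
      · rw [h]; exact ⟨hx, rfl⟩
      · rw [h]; exact ⟨hy, hlab⟩
    · rintro ⟨h1, h2⟩; exact hcls k h1 h2
  rw [cexpL_of_class Ω lab f x {x, y} hS, Finset.sum_pair hxy, Finset.card_pair hxy]
  norm_num

/-- if every class is a point or a pair joined by `R`, the energy of the conditional
expectation is a quarter of the `R`-energy -/
theorem sum_sq_eq_dirichlet (Ω : Finset X) (lab : X → Λ) (R : X → X → Prop) (f : X → ℝ)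
    (hR : ∀ x ∈ Ω, ∀ y ∈ Ω, R x y → x ≠ y ∧ lab y = lab x)
    (huniq : ∀ x ∈ Ω, ∀ y ∈ Ω, ∀ y' ∈ Ω, R x y → R x y' → y = y')
    (hcls : ∀ x ∈ Ω, ∀ y ∈ Ω, lab y = lab x → y = x ∨ R x y) :
    ∑ x ∈ Ω, (f x - KTV.cexpL Ω lab f x) ^ 2 = (1 / 4 : ℝ) * KTV.dirichlet Ω R f := by
  unfold KTV.dirichlet
  rw [Finset.mul_sum]
  refine Finset.sum_congr rfl fun x hx => ?_
  by_cases hex : ∃ y ∈ Ω, R x y
  · obtain ⟨y, hy, hxy⟩ := hex
    have hfil : Ω.filter (R x) = {y} := by
      ext y'
      rw [Finset.mem_filter, Finset.mem_singleton]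
      constructor
      · rintro ⟨h1, h2⟩; exact (huniq x hx y hy y' h1 hxy h2).symm
      · intro h; rw [h]; exact ⟨hy, hxy⟩
    have hc : ∀ k ∈ Ω, lab k = lab x → k = x ∨ k = y := by
      intro k hk hl
      rcases hcls x hx k hk hl with h | h
      · exact Or.inl h
      · exact Or.inr (huniq x hx k hk y hy h hxy)
    rw [hfil, Finset.sum_singleton,
      cexpL_pair Ω lab f hx hy (hR x hx y hy hxy).1 (hR x hx y hy hxy).2 hc]
    ring
  · have hfil : Ω.filter (R x) = ∅ := by
      rw [Finset.filter_eq_empty_iff]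
      intro y hy hxy
      exact hex ⟨y, hy, hxy⟩
    have hc : ∀ y ∈ Ω, lab y = lab x → f y = f x := by
      intro y hy hl
      rcases hcls x hx y hy hl with h | h
      · rw [h]
      · exact absurd ⟨y, hy, h⟩ hex
    rw [hfil, Finset.sum_empty, KTV.cexpL_of_const Ω lab f hx hc]
    simp

/-- averaging over a two-point class of `lB` the averages over two `lT`-classes of equal
size is averaging over their union -/
theorem cexpL_two (Ω Ω' : Finset X) (lB : X → Λ) (lT : X → Λ') (lP : X → Λ'') (f : X → ℝ)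
    {x y : X} (hx : x ∈ Ω) (hy : y ∈ Ω) (hxy : x ≠ y) (hlab : lB y = lB x)
    (hcls : ∀ k ∈ Ω, lB k = lB x → k = x ∨ k = y)
    (S1 S2 : Finset X)
    (h1 : ∀ k, k ∈ S1 ↔ (k ∈ Ω ∧ lT k = lT x))
    (h2 : ∀ k, k ∈ S2 ↔ (k ∈ Ω ∧ lT k = lT y))
    (hcard : S1.card = S2.card)
    (hdisj : Disjoint S1 S2)
    (hun : ∀ k, (k ∈ Ω' ∧ lP k = lP x) ↔ (k ∈ S1 ∨ k ∈ S2)) :
    KTV.cexpL Ω lB (KTV.cexpL Ω lT f) x = KTV.cexpL Ω' lP f x := by
  have hU : ∀ k, k ∈ S1 ∪ S2 ↔ (k ∈ Ω' ∧ lP k = lP x) := by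
    intro k
    rw [Finset.mem_union]
    exact (hun k).symm
  have hpos : (0 : ℝ) < (S2.card : ℝ) := by
    have hm : x ∈ S1 := (h1 x).2 ⟨hx, rfl⟩
    rw [← hcard]
    exact_mod_cast Finset.card_pos.2 ⟨x, hm⟩
  rw [cexpL_pair Ω lB _ hx hy hxy hlab hcls, cexpL_of_class Ω lT f x S1 h1,
    cexpL_of_class Ω lT f y S2 h2, cexpL_of_class Ω' lP f x (S1 ∪ S2) hU,
    Finset.sum_union hdisj, Finset.card_union_of_disjoint hdisj, hcard]
  push_cast
  field_simp
  ring

end Abstract

variable {n : ℕ}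

theorem degree_eq_sum (G : SimpleGraph (Fin n)) (a : Fin n) :
    G.degree a = ∑ x : Fin n, adjN G a x := by
  unfold adjN
  rw [← SimpleGraph.card_neighborFinset_eq_degree, Finset.card_eq_sum_ones, ← Finset.sum_filter]
  apply Finset.sum_congr _ (fun _ _ => rfl)
  ext y
  simp

theorem adjN_le (G : SimpleGraph (Fin n)) (x y : Fin n) : adjN G x y ≤ 1 := by
  unfold adjN; split_ifs <;> omega

theorem adjN_one {G : SimpleGraph (Fin n)} {x y : Fin n} : adjN G x y = 1 ↔ G.Adj x y := by
  unfold adjN; split_ifs with h <;> simp [h]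

theorem adjN_zero {G : SimpleGraph (Fin n)} {x y : Fin n} : adjN G x y = 0 ↔ ¬ G.Adj x y := by
  unfold adjN; split_ifs with h <;> simp [h]

theorem adjN_comm (G : SimpleGraph (Fin n)) (x y : Fin n) : adjN G x y = adjN G y x := by
  have h : G.Adj x y ↔ G.Adj y x := G.adj_comm x y
  unfold adjN
  simp only [h]

theorem adjN_self (G : SimpleGraph (Fin n)) (x : Fin n) : adjN G x x = 0 :=
  adjN_zero.2 (G.irrefl)

theorem adj_iff {G H : SimpleGraph (Fin n)} {x y : Fin n} (h : adjN H x y = adjN G x y) :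
    H.Adj x y ↔ G.Adj x y := by
  rw [← adjN_one, ← adjN_one, h]

/-- two graphs with the same degree at `a` that agree on all slots at `a` except `ap`, `aq`
have the same number of edges among `ap`, `aq` -/
theorem pairsum_eq {G H : SimpleGraph (Fin n)} {a p q : Fin n} (hpq : p ≠ q)
    (hdeg : H.degree a = G.degree a)
    (hoff : ∀ x, x ≠ p → x ≠ q → (H.Adj a x ↔ G.Adj a x)) :
    adjN H a p + adjN H a q = adjN G a p + adjN G a q := by
  have key : ∀ K : SimpleGraph (Fin n), K.degree a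
      = adjN K a p + (adjN K a q + ∑ x ∈ (univ.erase p).erase q, adjN K a x) := by
    intro K
    rw [degree_eq_sum, Finset.add_sum_erase (univ.erase p) (adjN K a)
      (Finset.mem_erase.2 ⟨hpq.symm, Finset.mem_univ q⟩),
      Finset.add_sum_erase univ (adjN K a) (Finset.mem_univ p)]
  have h3 : ∑ x ∈ (univ.erase p).erase q, adjN H a x
      = ∑ x ∈ (univ.erase p).erase q, adjN G a x := by
    refine Finset.sum_congr rfl fun x hx => ?_
    have hx1 : x ≠ q := (Finset.mem_erase.1 hx).1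
    have hx2 : x ≠ p := (Finset.mem_erase.1 (Finset.mem_erase.1 hx).2).1
    have hiff := hoff x hx2 hx1
    unfold adjN
    simp only [hiff]
  have h1 := key H
  have h2 := key G
  omega

theorem Rbet_Rinc {S T : Finset (Fin n)} {x y : Fin n} (h : Rbet S T x y) : Rinc S x y := by
  rcases h with ⟨h, -⟩ | ⟨-, h⟩
  · exact Or.inl h
  · exact Or.inr h

theorem Rbet_symm {S T : Finset (Fin n)} {x y : Fin n} (h : Rbet S T x y) : Rbet S T y x := by
  rcases h with ⟨h1, h2⟩ | ⟨h1, h2⟩
  · exact Or.inr ⟨h2, h1⟩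
  · exact Or.inl ⟨h2, h1⟩

/-- a switch only changes the four slots between `{a,e}` and `{b,c}` -/
theorem switch_off (G : SimpleGraph (Fin n)) (a b c e : Fin n) {x y : Fin n}
    (h : ¬ Rbet {a, e} {b, c} x y) : (switchGraph G a b c e).Adj x y ↔ G.Adj x y := by
  rw [switchGraph_adj]
  constructor
  · rintro (⟨hg, -, -⟩ | ⟨hh, -⟩)
    · exact hg
    · exfalso
      rcases hh with (⟨rfl, rfl⟩ | ⟨rfl, rfl⟩) | (⟨rfl, rfl⟩ | ⟨rfl, rfl⟩) <;>
        exact h (by simp [Rbet])
  · intro hg
    left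
    refine ⟨hg, ?_, ?_⟩
    · rintro (⟨rfl, rfl⟩ | ⟨rfl, rfl⟩) <;> exact h (by simp [Rbet])
    · rintro (⟨rfl, rfl⟩ | ⟨rfl, rfl⟩) <;> exact h (by simp [Rbet])

/-- a graph that agrees with `G` off the block and carries the switched block is the
switched graph -/
theorem eq_switch_of {G H : SimpleGraph (Fin n)} {a b c e : Fin n}
    (hab : a ≠ b) (hac : a ≠ c) (hae : a ≠ e) (hbc : b ≠ c) (hbe : b ≠ e) (hce : c ≠ e)
    (hoff : ∀ x y, ¬ Rbet {a, e} {b, c} x y → (H.Adj x y ↔ G.Adj x y))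
    (h1 : ¬ H.Adj a b) (h2 : ¬ H.Adj c e) (h3 : H.Adj a c) (h4 : H.Adj b e) :
    H = switchGraph G a b c e := by
  have h1' : ¬ H.Adj b a := fun h => h1 h.symm
  have h2' : ¬ H.Adj e c := fun h => h2 h.symm
  have h3' : H.Adj c a := h3.symm
  have h4' : H.Adj e b := h4.symm
  ext x y
  by_cases hR : Rbet {a, e} {b, c} x y
  · rw [switchGraph_adj]
    simp only [Rbet, Finset.mem_insert, Finset.mem_singleton] at hR
    rcases hR with ⟨rfl | rfl, rfl | rfl⟩ | ⟨rfl | rfl, rfl | rfl⟩ <;>
      simp [h1, h1', h2, h2', h3, h3', h4, h4', hab, hab.symm, hac, hac.symm, hae, hae.symm,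
        hbc, hbc.symm, hbe, hbe.symm, hce, hce.symm]
  · exact (hoff x y hR).trans (switch_off G a b c e hR).symm

/-- margins of the block are determined by the graph off the block -/
theorem block_margins {d : Fin n → ℕ} {u v w z : Fin n} (hD : D4 u v w z)
    {G H : SimpleGraph (Fin n)} (hG : G ∈ gOmega n d) (hH : H ∈ gOmega n d)
    (hoff : ∀ x y, ¬ Rbet {u, v} {w, z} x y → (H.Adj x y ↔ G.Adj x y)) :
    adjN H u w + adjN H u z = adjN G u w + adjN G u z ∧
    adjN H v w + adjN H v z = adjN G v w + adjN G v z ∧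
    adjN H u w + adjN H v w = adjN G u w + adjN G v w ∧
    adjN H u z + adjN H v z = adjN G u z + adjN G v z := by
  obtain ⟨huv, huw, huz, hvw, hvz, hwz⟩ := hD
  have hdeg : ∀ i, H.degree i = G.degree i := fun i => by
    rw [mem_gOmega.1 hH i, mem_gOmega.1 hG i]
  have r1 := pairsum_eq hwz (hdeg u)
    (fun x hx1 hx2 => hoff u x (by simp [Rbet, hx1, hx2, huw, huz]))
  have r2 := pairsum_eq hwz (hdeg v)
    (fun x hx1 hx2 => hoff v x (by simp [Rbet, hx1, hx2, hvw, hvz]))
  have c1 := pairsum_eq huv (hdeg w)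
    (fun x hx1 hx2 => hoff w x (by simp [Rbet, hx1, hx2, huw.symm, hvw.symm]))
  have c2 := pairsum_eq huv (hdeg z)
    (fun x hx1 hx2 => hoff z x (by simp [Rbet, hx1, hx2, huz.symm, hvz.symm]))
  rw [adjN_comm H w u, adjN_comm H w v, adjN_comm G w u, adjN_comm G w v] at c1
  rw [adjN_comm H z u, adjN_comm H z v, adjN_comm G z u, adjN_comm G z v] at c2
  exact ⟨r1, r2, c1, c2⟩

theorem Rbet_swap (u v w z : Fin n) : Rbet {u, v} {z, w} = Rbet {u, v} {w, z} := by
  rw [Finset.pair_comm z w]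

/-- a graph of the state space that agrees with `G` off the block is `G` or the block
switch of `G` -/
theorem block_cases {d : Fin n → ℕ} {u v w z : Fin n} (hD : D4 u v w z)
    {G H : SimpleGraph (Fin n)} (hG : G ∈ gOmega n d) (hH : H ∈ gOmega n d)
    (hlab : labB u v w z H = labB u v w z G) : H = G ∨ SwBrel u v w z G H := by
  have hoff := (slotLab_eq_iff _ _ _).1 hlab
  obtain ⟨m1, m2, m3, m4⟩ := block_margins hD hG hH hoff
  obtain ⟨huv, huw, huz, hvw, hvz, hwz⟩ := hD
  have b1 := adjN_le G u w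
  have b2 := adjN_le G u z
  have b3 := adjN_le G v w
  have b4 := adjN_le G v z
  have b5 := adjN_le H u w
  have b6 := adjN_le H u z
  have b7 := adjN_le H v w
  have b8 := adjN_le H v z
  have tri : (adjN H u w = adjN G u w ∧ adjN H u z = adjN G u z ∧ adjN H v w = adjN G v w ∧
        adjN H v z = adjN G v z)
      ∨ (adjN G u w = 1 ∧ adjN G v z = 1 ∧ adjN G u z = 0 ∧ adjN G v w = 0 ∧
        adjN H u w = 0 ∧ adjN H v z = 0 ∧ adjN H u z = 1 ∧ adjN H v w = 1)
      ∨ (adjN G u w = 0 ∧ adjN G v z = 0 ∧ adjN G u z = 1 ∧ adjN G v w = 1 ∧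
        adjN H u w = 1 ∧ adjN H v z = 1 ∧ adjN H u z = 0 ∧ adjN H v w = 0) := by omega
  rcases tri with ⟨e1, e2, e3, e4⟩ | ⟨g1, g2, g3, g4, k1, k2, k3, k4⟩ |
    ⟨g1, g2, g3, g4, k1, k2, k3, k4⟩
  · left
    ext x y
    by_cases hR : Rbet {u, v} {w, z} x y
    · simp only [Rbet, Finset.mem_insert, Finset.mem_singleton] at hR
      rcases hR with ⟨rfl | rfl, rfl | rfl⟩ | ⟨rfl | rfl, rfl | rfl⟩
      · exact adj_iff e1
      · exact adj_iff e2
      · exact adj_iff e3
      · exact adj_iff e4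
      · exact (H.adj_comm _ _).trans ((adj_iff e1).trans (G.adj_comm _ _))
      · exact (H.adj_comm _ _).trans ((adj_iff e3).trans (G.adj_comm _ _))
      · exact (H.adj_comm _ _).trans ((adj_iff e2).trans (G.adj_comm _ _))
      · exact (H.adj_comm _ _).trans ((adj_iff e4).trans (G.adj_comm _ _))
    · exact hoff x y hR
  · right
    left
    refine ⟨⟨adjN_one.1 g1, (adjN_one.1 g2).symm, adjN_zero.1 g3,
      fun h => adjN_zero.1 g4 h.symm⟩, ?_⟩
    exact eq_switch_of huw huz huv hwz hvw.symm hvz.symm hoff (adjN_zero.1 k1)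
      (fun h => adjN_zero.1 k2 h.symm) (adjN_one.1 k3) (adjN_one.1 k4).symm
  · right
    right
    refine ⟨⟨adjN_one.1 g3, (adjN_one.1 g4).symm, adjN_zero.1 g1,
      fun h => adjN_zero.1 g2 h.symm⟩, ?_⟩
    have hoff' : ∀ x y, ¬ Rbet {u, v} {z, w} x y → (H.Adj x y ↔ G.Adj x y) := by
      rw [Rbet_swap]; exact hoff
    exact eq_switch_of huz huw huv hwz.symm hvz.symm hvw.symm hoff' (adjN_zero.1 k3)
      (fun h => adjN_zero.1 k4 h.symm) (adjN_one.1 k1) (adjN_one.1 k2).symm

/-- **(a)** the energy of the block heat bath is a quarter of the block switch energy -/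
theorem block_a {d : Fin n → ℕ} {u v w z : Fin n} (hD : D4 u v w z)
    (f : SimpleGraph (Fin n) → ℝ) :
    ∑ G ∈ gOmega n d, (f G - KTV.cexpL (gOmega n d) (labB u v w z) f G) ^ 2
      = (1 / 4 : ℝ) * swD (gOmega n d) u v w z f := by
  obtain ⟨huv, huw, huz, hvw, hvz, hwz⟩ := id hD
  unfold swD
  refine sum_sq_eq_dirichlet (gOmega n d) (labB u v w z) (SwBrel u v w z) f ?_ ?_ ?_
  · intro G _ H _ hrel
    rcases hrel with ⟨hA, hH⟩ | ⟨hA, hH⟩
    · rw [hH]
      refine ⟨(switchGraph_ne hA huw huz huv hwz hvw.symm hvz.symm).symm, ?_⟩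
      exact (slotLab_eq_iff _ _ _).2 (fun x y h => switch_off G u w z v h)
    · rw [hH]
      refine ⟨(switchGraph_ne hA huz huw huv hwz.symm hvz.symm hvw.symm).symm, ?_⟩
      refine (slotLab_eq_iff _ _ _).2 (fun x y h => switch_off G u z w v ?_)
      rw [Rbet_swap]; exact h
  · intro G _ H _ H' _ hrel hrel'
    rcases hrel with ⟨hA, hH⟩ | ⟨hA, hH⟩ <;> rcases hrel' with ⟨hA', hH'⟩ | ⟨hA', hH'⟩
    · rw [hH, hH']
    · exact absurd hA.1 hA'.2.2.1
    · exact absurd hA'.1 hA.2.2.1
    · rw [hH, hH']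
  · intro G hG H hH hlab
    exact block_cases hD hG hH hlab

/-- the switch is an injection between the fibres of a slot label that does not see
the block -/
theorem card_class_le {d : Fin n → ℕ} {G : SimpleGraph (Fin n)} {a b c e : Fin n}
    (hab : a ≠ b) (hac : a ≠ c) (hae : a ≠ e) (hbc : b ≠ c) (hbe : b ≠ e) (hce : c ≠ e)
    (R : Fin n → Fin n → Prop)
    (hR1 : ¬ R a b) (hR2 : ¬ R c e) (hR3 : ¬ R a c) (hR4 : ¬ R b e)
    (hA : Allowed G a b c e) (S1 S2 : Finset (SimpleGraph (Fin n)))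
    (h1 : ∀ K, K ∈ S1 ↔ (K ∈ gOmega n d ∧ slotLab R K = slotLab R G))
    (h2 : ∀ K, K ∈ S2 ↔
      (K ∈ gOmega n d ∧ slotLab R K = slotLab R (switchGraph G a b c e))) :
    S1.card ≤ S2.card := by
  have hAK : ∀ K ∈ S1, Allowed K a b c e := by
    intro K hK
    have hoff := (slotLab_eq_iff _ _ _).1 ((h1 K).1 hK).2
    exact ⟨(hoff a b hR1).2 hA.1, (hoff c e hR2).2 hA.2.1,
      fun h => hA.2.2.1 ((hoff a c hR3).1 h), fun h => hA.2.2.2 ((hoff b e hR4).1 h)⟩
  refine Finset.card_le_card_of_injOn (fun K => switchGraph K a b c e) ?_ ?_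
  · intro K hK
    have hK1 : K ∈ S1 := Finset.mem_coe.1 hK
    have hK' := (h1 K).1 hK1
    refine Finset.mem_coe.2 ((h2 _).2 ⟨mem_gOmega.2 fun i => ?_, ?_⟩)
    · rw [degree_switch (hAK K hK1) hab hac hae hbc hbe hce i]
      exact mem_gOmega.1 hK'.1 i
    · rw [slotLab_eq_iff]
      intro x y hxy
      rw [switchGraph_adj, switchGraph_adj, (slotLab_eq_iff _ _ _).1 hK'.2 x y hxy]
  · intro K hK K' hK' heq
    have hK1 : K ∈ S1 := Finset.mem_coe.1 hK
    have hK1' : K' ∈ S1 := Finset.mem_coe.1 hK'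
    have e1 := (switch_back (hAK K hK1) hab hac hae hbc hbe hce).2
    have e2 := (switch_back (hAK K' hK1') hab hac hae hbc hbe hce).2
    have heq' : switchGraph K a b c e = switchGraph K' a b c e := heq
    calc K = switchGraph (switchGraph K a b c e) a c b e := e1.symm
      _ = switchGraph (switchGraph K' a b c e) a c b e := by rw [heq']
      _ = K' := e2

/-- the slot `uv` is determined by the graph off the slots at `u`, `v` -/
theorem adj_pair_eq {d : Fin n → ℕ} {u v : Fin n} (huv : u ≠ v) {G K : SimpleGraph (Fin n)}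
    (hG : G ∈ gOmega n d) (hK : K ∈ gOmega n d)
    (hoff : ∀ x y, ¬ Rinc {u, v} x y → (K.Adj x y ↔ G.Adj x y)) :
    K.Adj u v ↔ G.Adj u v := by
  have key : ∀ L : SimpleGraph (Fin n), L.degree u + L.degree v
      = 2 * adjN L u v + ∑ x ∈ (univ.erase u).erase v, (adjN L x u + adjN L x v) := by
    intro L
    have e1 : ∀ a : Fin n, L.degree a
        = adjN L a u + (adjN L a v + ∑ x ∈ (univ.erase u).erase v, adjN L a x) := by
      intro a
      rw [degree_eq_sum, Finset.add_sum_erase (univ.erase u) (adjN L a)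
        (Finset.mem_erase.2 ⟨huv.symm, Finset.mem_univ v⟩),
        Finset.add_sum_erase univ (adjN L a) (Finset.mem_univ u)]
    have e2 : ∀ a : Fin n, ∑ x ∈ (univ.erase u).erase v, adjN L a x
        = ∑ x ∈ (univ.erase u).erase v, adjN L x a :=
      fun a => Finset.sum_congr rfl (fun x _ => adjN_comm L a x)
    have eu := e1 u
    have ev := e1 v
    rw [adjN_self, e2 u] at eu
    rw [adjN_self, e2 v, adjN_comm L v u] at ev
    rw [Finset.sum_add_distrib]
    omega
  have hs : ∑ x ∈ (univ.erase u).erase v, (adjN K x u + adjN K x v)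
      = ∑ x ∈ (univ.erase u).erase v, (adjN G x u + adjN G x v) := by
    refine Finset.sum_congr rfl fun x hx => ?_
    have hx1 : x ≠ v := (Finset.mem_erase.1 hx).1
    have hx2 : x ≠ u := (Finset.mem_erase.1 (Finset.mem_erase.1 hx).2).1
    exact pairsum_eq huv (by rw [mem_gOmega.1 hK x, mem_gOmega.1 hG x])
      (fun y hy1 hy2 => hoff x y (by simp [Rinc, hx1, hx2, hy1, hy2]))
  have h1 := key K
  have h2 := key G
  have hd : K.degree u + K.degree v = G.degree u + G.degree v := by
    rw [mem_gOmega.1 hK u, mem_gOmega.1 hK v, mem_gOmega.1 hG u, mem_gOmega.1 hG v]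
  have h3 : adjN K u v = adjN G u v := by omega
  exact adj_iff h3

/-- agreement off the slots at `u`, `v`, on the slot `uv` and on the block gives the
same outer label -/
theorem agree_T {u v w z : Fin n} {K G : SimpleGraph (Fin n)}
    (hoff : ∀ x y, ¬ Rinc {u, v} x y → (K.Adj x y ↔ G.Adj x y))
    (huvA : K.Adj u v ↔ G.Adj u v) (h1 : K.Adj u w ↔ G.Adj u w) (h2 : K.Adj u z ↔ G.Adj u z)
    (h3 : K.Adj v w ↔ G.Adj v w) (h4 : K.Adj v z ↔ G.Adj v z) :
    labT u v w z K = labT u v w z G := by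
  have key : ∀ x y, x ∈ ({u, v} : Finset (Fin n)) →
      ¬ Rbet {u, v} (Finset.univ \ {u, v, w, z}) x y → (K.Adj x y ↔ G.Adj x y) := by
    intro x y hx hxy
    have hy : y ∈ ({u, v, w, z} : Finset (Fin n)) := by
      by_contra hy
      exact hxy (Or.inl ⟨hx, by simp only [Finset.mem_sdiff, Finset.mem_univ, true_and]; exact hy⟩)
    simp only [Finset.mem_insert, Finset.mem_singleton] at hx hy
    rcases hx with rfl | rfl <;> rcases hy with rfl | rfl | rfl | rfl
    · simp
    · exact huvA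
    · exact h1
    · exact h2
    · exact (K.adj_comm _ _).trans (huvA.trans (G.adj_comm _ _))
    · simp
    · exact h3
    · exact h4
  unfold labT
  rw [slotLab_eq_iff]
  intro x y hxy
  by_cases hx : x ∈ ({u, v} : Finset (Fin n))
  · exact key x y hx hxy
  · by_cases hy : y ∈ ({u, v} : Finset (Fin n))
    · exact (K.adj_comm _ _).trans ((key y x hy (fun h => hxy (Rbet_symm h))).trans
        (G.adj_comm _ _))
    · exact hoff x y (fun h => h.elim hx hy)

/-- **(b)**, first orientation of the alternating 4-cycle -/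
theorem block_b_core {d : Fin n → ℕ} {u v w z : Fin n} (hD : D4 u v w z)
    (f : SimpleGraph (Fin n) → ℝ) {G : SimpleGraph (Fin n)} (hG : G ∈ gOmega n d)
    (hA : Allowed G u w z v) :
    KTV.cexpL (gOmega n d) (labB u v w z) (KTV.cexpL (gOmega n d) (labT u v w z) f) G
      = KTV.cexpL (OmB (gOmega n d) u v w z) (labP u v) f G := by
  obtain ⟨huv, huw, huz, hvw, hvz, hwz⟩ := id hD
  have hH : switchGraph G u w z v ∈ gOmega n d := mem_gOmega.2 fun i => by
    rw [degree_switch hA huw huz huv hwz hvw.symm hvz.symm i]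
    exact mem_gOmega.1 hG i
  have hGH : G ≠ switchGraph G u w z v :=
    (switchGraph_ne hA huw huz huv hwz hvw.symm hvz.symm).symm
  have hback := switch_back hA huw huz huv hwz hvw.symm hvz.symm
  have hHoff : ∀ x y, ¬ Rbet {u, v} {w, z} x y →
      ((switchGraph G u w z v).Adj x y ↔ G.Adj x y) := fun x y h => switch_off G u w z v h
  have hlab : labB u v w z (switchGraph G u w z v) = labB u v w z G :=
    (slotLab_eq_iff _ _ _).2 hHoff
  have hcls : ∀ K ∈ gOmega n d, labB u v w z K = labB u v w z G →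
      K = G ∨ K = switchGraph G u w z v := by
    intro K hK hl
    rcases block_cases hD hG hK hl with h | ⟨_, h⟩ | ⟨hA', _⟩
    · exact Or.inl h
    · exact Or.inr h
    · exact absurd hA.1 hA'.2.2.1
  -- the two outer fibres
  have hR1 : ¬ Rbet {u, v} (Finset.univ \ {u, v, w, z}) u w := by simp [Rbet]
  have hR2 : ¬ Rbet {u, v} (Finset.univ \ {u, v, w, z}) z v := by simp [Rbet]
  have hR3 : ¬ Rbet {u, v} (Finset.univ \ {u, v, w, z}) u z := by simp [Rbet]
  have hR4 : ¬ Rbet {u, v} (Finset.univ \ {u, v, w, z}) w v := by simp [Rbet]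
  have hR5 : ¬ Rbet {u, v} (Finset.univ \ {u, v, w, z}) v z := by simp [Rbet]
  have hR6 : ¬ Rbet {u, v} (Finset.univ \ {u, v, w, z}) v w := by simp [Rbet]
  have h1 : ∀ K, K ∈ (gOmega n d).filter (fun K => labT u v w z K = labT u v w z G) ↔
      (K ∈ gOmega n d ∧ labT u v w z K = labT u v w z G) := fun K => Finset.mem_filter
  have h2 : ∀ K, K ∈ (gOmega n d).filter
        (fun K => labT u v w z K = labT u v w z (switchGraph G u w z v)) ↔
      (K ∈ gOmega n d ∧ labT u v w z K = labT u v w z (switchGraph G u w z v)) :=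
    fun K => Finset.mem_filter
  have hcard : ((gOmega n d).filter (fun K => labT u v w z K = labT u v w z G)).card
      = ((gOmega n d).filter
        (fun K => labT u v w z K = labT u v w z (switchGraph G u w z v))).card := by
    refine le_antisymm ?_ ?_
    · exact card_class_le huw huz huv hwz hvw.symm hvz.symm _ hR1 hR2 hR3 hR4 hA _ _ h1 h2
    · refine card_class_le (G := switchGraph G u w z v) huz huw huv hwz.symm hvz.symm hvw.symm
        _ hR3 hR4 hR1 hR2 hback.1 _ _ h2 ?_
      intro K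
      rw [hback.2]
      exact h1 K
  have hdisj : Disjoint ((gOmega n d).filter (fun K => labT u v w z K = labT u v w z G))
      ((gOmega n d).filter
        (fun K => labT u v w z K = labT u v w z (switchGraph G u w z v))) := by
    rw [Finset.disjoint_left]
    intro K hK1 hK2
    have o1 := (slotLab_eq_iff _ _ _).1 ((h1 K).1 hK1).2 u w hR1
    have o2 := (slotLab_eq_iff _ _ _).1 ((h2 K).1 hK2).2 u w hR1
    exact hback.1.2.2.1 (o2.1 (o1.2 hA.1))
  have hun : ∀ K, (K ∈ OmB (gOmega n d) u v w z ∧ labP u v K = labP u v G) ↔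
      (K ∈ (gOmega n d).filter (fun K => labT u v w z K = labT u v w z G) ∨
        K ∈ (gOmega n d).filter
          (fun K => labT u v w z K = labT u v w z (switchGraph G u w z v))) := by
    intro K
    constructor
    · rintro ⟨hKB, hP⟩
      have hK : K ∈ gOmega n d := (Finset.mem_filter.1 hKB).1
      have hSw : SwB u v w z K := (Finset.mem_filter.1 hKB).2
      have hoffP : ∀ x y, ¬ Rinc {u, v} x y → (K.Adj x y ↔ G.Adj x y) :=
        (slotLab_eq_iff _ _ _).1 hP
      have huvK : K.Adj u v ↔ G.Adj u v := adj_pair_eq huv hG hK hoffP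
      rcases hSw with ⟨k1, k2, k3, k4⟩ | ⟨k1, k2, k3, k4⟩
      · left
        refine (h1 K).2 ⟨hK, agree_T hoffP huvK (iff_of_true k1 hA.1)
          (iff_of_false k3 hA.2.2.1) (iff_of_false k4 (fun h => hA.2.2.2 h.symm))
          (iff_of_true k2 hA.2.1.symm)⟩
      · right
        refine (h2 K).2 ⟨hK, agree_T
          (fun x y h => (hoffP x y h).trans (hHoff x y (fun hR => h (Rbet_Rinc hR))).symm)
          (huvK.trans (hHoff u v (by simp [Rbet, huw, huz, hvw, hvz])).symm)
          (iff_of_false k3 hback.1.2.2.1) (iff_of_true k1 hback.1.1)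
          (iff_of_true k2 hback.1.2.1.symm)
          (iff_of_false k4 (fun h => hback.1.2.2.2 h.symm))⟩
    · rintro (hK1 | hK2)
      · obtain ⟨hK, hT⟩ := (h1 K).1 hK1
        have hoffT := (slotLab_eq_iff _ _ _).1 hT
        refine ⟨Finset.mem_filter.2 ⟨hK, Or.inl ⟨(hoffT u w hR1).2 hA.1,
          (hoffT v z hR5).2 hA.2.1.symm, fun h => hA.2.2.1 ((hoffT u z hR3).1 h),
          fun h => hA.2.2.2 ((hoffT v w hR6).1 h).symm⟩⟩, ?_⟩
        exact (slotLab_eq_iff _ _ _).2 (fun x y h => hoffT x y (fun hR => h (Rbet_Rinc hR)))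
      · obtain ⟨hK, hT⟩ := (h2 K).1 hK2
        have hoffT := (slotLab_eq_iff _ _ _).1 hT
        refine ⟨Finset.mem_filter.2 ⟨hK, Or.inr ⟨(hoffT u z hR3).2 hback.1.1,
          (hoffT v w hR6).2 hback.1.2.1.symm, fun h => hback.1.2.2.1 ((hoffT u w hR1).1 h),
          fun h => hback.1.2.2.2 ((hoffT v z hR5).1 h).symm⟩⟩, ?_⟩
        exact (slotLab_eq_iff _ _ _).2 (fun x y h =>
          (hoffT x y (fun hR => h (Rbet_Rinc hR))).trans
            (hHoff x y (fun hR => h (Rbet_Rinc hR))))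
  exact cexpL_two (gOmega n d) (OmB (gOmega n d) u v w z) (labB u v w z) (labT u v w z)
    (labP u v) f hG hH hGH hlab hcls _ _ h1 h2 hcard hdisj hun

theorem labB_swap (u v w z : Fin n) : labB u v z w = labB u v w z := by
  unfold labB
  rw [Finset.pair_comm z w]

theorem labT_swap (u v w z : Fin n) : labT u v z w = labT u v w z := by
  unfold labT
  rw [Finset.pair_comm z w]

theorem SwB_swap (u v w z : Fin n) : SwB u v z w = SwB u v w z := by
  funext G
  exact propext Or.comm

theorem OmB_swap (Ω : Finset (SimpleGraph (Fin n))) (u v w z : Fin n) :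
    OmB Ω u v z w = OmB Ω u v w z := by
  unfold OmB
  rw [SwB_swap]

end Blk

/-- **M3b-iii**: the block heat bath statement of the plan -/
theorem blockStmt (n : ℕ) (d : Fin n → ℕ) : BlockStmt n d := by
  intro u v w z hD f
  refine ⟨Blk.block_a hD f, fun G hG hSw => ?_⟩
  rcases hSw with ⟨s1, s2, s3, s4⟩ | ⟨s1, s2, s3, s4⟩
  · exact Blk.block_b_core hD f hG ⟨s1, s2.symm, s3, fun h => s4 h.symm⟩
  · obtain ⟨huv, huw, huz, hvw, hvz, hwz⟩ := hD
    have h := Blk.block_b_core (u := u) (v := v) (w := z) (z := w)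
      ⟨huv, huz, huw, hvz, hvw, hwz.symm⟩ f hG ⟨s1, s2.symm, s3, fun h => s4 h.symm⟩
    rw [Blk.labB_swap, Blk.labT_swap, Blk.OmB_swap] at h
    exact h

end KTVG
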