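import Mathlib

/-!
Final arithmetic for P074: an exponent above one third is impossible.
-/

namespace Vale.Agent.Helper27.P074Arith

/-- If `α > 1/3` (and `α ≤ 1`), then for every constant `C` there is `t ∈ (0,1]` such that
for every `a` with `t/16 ≤ a ≤ 1/2` one has `C^2 * (a * t^2)^α < a/2`. -/
theorem exists_small_t {α : ℝ} (hα : 1 / 3 < α) (hα1 : α ≤ 1) (C : ℝ) :
    ∃ t : ℝ, 0 < t ∧ t ≤ 1 ∧ ∀ a : ℝ, t / 16 ≤ a → a ≤ 1 / 2 →
      C ^ 2 * (a * t ^ 2) ^ α < a / 2 := by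
  set e : ℝ := 3 * α - 1 with he
  have he0 : 0 < e := by rw [he]; linarith
  set M : ℝ := 32 * C ^ 2 + 1 with hM
  have hM1 : 1 ≤ M := by rw [hM]; nlinarith [sq_nonneg C]
  have hM0 : 0 < M := by linarith
  set t : ℝ := M ^ (-(1 / e)) with ht
  have ht0 : 0 < t := Real.rpow_pos_of_pos hM0 _
  have ht1 : t ≤ 1 := by
    rw [ht]
    apply Real.rpow_le_one_of_one_le_of_nonpos hM1
    have : 0 < 1 / e := by positivity
    linarith
  have hkey : t ^ (1 - 3 * α) = M := by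
    rw [ht, ← Real.rpow_mul hM0.le]
    have : -(1 / e) * (1 - 3 * α) = 1 := by
      have hne : e ≠ 0 := ne_of_gt he0
      have h13 : 1 - 3 * α = -e := by rw [he]; ring
      rw [h13]
      field_simp
    rw [this, Real.rpow_one]
  refine ⟨t, ht0, ht1, ?_⟩
  intro a ha1 ha2
  have ha0 : 0 < a := by
    have : 0 < t / 16 := by positivity
    linarith
  -- rewrite the left side
  have h1 : (a * t ^ 2) ^ α = a ^ α * t ^ (2 * α) := by
    rw [Real.mul_rpow ha0.le (by positivity)]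
    congr 1
    rw [← Real.rpow_natCast, ← Real.rpow_mul ht0.le]
    norm_num
  have h2 : a = a ^ α * a ^ (1 - α) := by
    rw [← Real.rpow_add ha0]
    have : α + (1 - α) = 1 := by ring
    rw [this, Real.rpow_one]
  have h3 : (t / 16) ^ (1 - α) ≤ a ^ (1 - α) :=
    Real.rpow_le_rpow (by positivity) ha1 (by linarith)
  have h4 : (t / 16) ^ (1 - α) = t ^ (1 - α) / 16 ^ (1 - α) :=
    Real.div_rpow ht0.le (by norm_num) _
  have h5 : (16 : ℝ) ^ (1 - α) ≤ 16 := by
    have := Real.rpow_le_rpow_of_exponent_le (x := (16 : ℝ)) (by norm_num) (show 1 - α ≤ 1 by linarith)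
    rwa [Real.rpow_one] at this
  have h5' : (0 : ℝ) < 16 ^ (1 - α) := Real.rpow_pos_of_pos (by norm_num) _
  have h6 : t ^ (1 - α) = t ^ (2 * α) * M := by
    rw [← hkey, ← Real.rpow_add ht0]
    congr 1; ring
  have ht2 : 0 < t ^ (2 * α) := Real.rpow_pos_of_pos ht0 _
  have haα : 0 < a ^ α := Real.rpow_pos_of_pos ha0 _
  -- lower bound for a^(1-α)
  have h7 : t ^ (2 * α) * M / 16 ≤ a ^ (1 - α) := by
    calc t ^ (2 * α) * M / 16 ≤ t ^ (2 * α) * M / 16 ^ (1 - α) := by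
          apply div_le_div_of_nonneg_left (by positivity) h5' h5
      _ = (t / 16) ^ (1 - α) := by rw [h4, h6]
      _ ≤ a ^ (1 - α) := h3
  have h8 : C ^ 2 * t ^ (2 * α) < a ^ (1 - α) / 2 := by
    have : C ^ 2 * t ^ (2 * α) < t ^ (2 * α) * M / 16 / 2 := by
      rw [hM]
      nlinarith [ht2, sq_nonneg C]
    linarith
  calc C ^ 2 * (a * t ^ 2) ^ α = a ^ α * (C ^ 2 * t ^ (2 * α)) := by rw [h1]; ring
    _ < a ^ α * (a ^ (1 - α) / 2) := by
        exact mul_lt_mul_of_pos_left h8 haα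
    _ = a / 2 := by
        have : a ^ α * (a ^ (1 - α) / 2) = a ^ α * a ^ (1 - α) / 2 := by ring
        rw [this, ← h2]


/-- The same without the restriction `α ≤ 1`. -/
theorem exists_small_t' {α : ℝ} (hα : 1 / 3 < α) (C : ℝ) :
    ∃ t : ℝ, 0 < t ∧ t ≤ 1 ∧ ∀ a : ℝ, t / 16 ≤ a → a ≤ 1 / 2 →
      C ^ 2 * (a * t ^ 2) ^ α < a / 2 := by
  by_cases hα1 : α ≤ 1
  · exact exists_small_t hα hα1 C
  · have h1 : (1 : ℝ) < α := not_le.mp hα1
    obtain ⟨t, ht0, ht1, h⟩ := exists_small_t (α := 1) (by norm_num) le_rfl C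
    refine ⟨t, ht0, ht1, ?_⟩
    intro a ha1 ha2
    have ha0 : 0 < a := by
      have : 0 < t / 16 := by positivity
      linarith
    have hb0 : 0 < a * t ^ 2 := by positivity
    have hb1 : a * t ^ 2 ≤ 1 := by
      have : t ^ 2 ≤ 1 := by nlinarith
      nlinarith
    have hmono : (a * t ^ 2) ^ α ≤ (a * t ^ 2) ^ (1 : ℝ) :=
      Real.rpow_le_rpow_of_exponent_ge hb0 hb1 h1.le
    have := h a ha1 ha2
    nlinarith [sq_nonneg C]

end Vale.Agent.Helper27.P074Arith
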