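import Mathlib

/-!
Box measures in the unit cube of `Fin d → ℝ` (helper file for P074).
-/

namespace Vale.Agent.Helper27.P074Box

open MeasureTheory Set

variable {d : ℕ}

/-- A sub-box of the unit cube cut out by conditions on two distinct coordinates is a product set. -/
theorem box_eq_pi (i0 i1 : Fin d) (h : i0 ≠ i1) (A B : Set ℝ) :
    {x : Fin d → ℝ | x ∈ Set.Icc (0 : Fin d → ℝ) 1 ∧ x i0 ∈ A ∧ x i1 ∈ B}
      = Set.pi Set.univ (fun i => if i = i0 then Set.Icc (0:ℝ) 1 ∩ A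
          else if i = i1 then Set.Icc (0:ℝ) 1 ∩ B else Set.Icc (0:ℝ) 1) := by
  ext x
  simp only [Set.mem_ofPred_eq, Set.mem_pi, Set.mem_univ, true_implies, Set.mem_Icc, Pi.le_def,
    Pi.zero_apply, Pi.one_apply]
  constructor
  · rintro ⟨⟨h0, h1⟩, hA, hB⟩ i
    by_cases hi0 : i = i0
    · subst hi0
      rw [if_pos rfl]
      exact ⟨⟨h0 i, h1 i⟩, hA⟩
    · rw [if_neg hi0]
      by_cases hi1 : i = i1
      · subst hi1
        rw [if_pos rfl]
        exact ⟨⟨h0 i, h1 i⟩, hB⟩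
      · rw [if_neg hi1]
        exact ⟨h0 i, h1 i⟩
  · intro hx
    have e0 := hx i0
    rw [if_pos rfl] at e0
    have e1 := hx i1
    rw [if_neg (Ne.symm h), if_pos rfl] at e1
    have key : ∀ i, x i ∈ Set.Icc (0:ℝ) 1 := by
      intro i
      have ei := hx i
      by_cases hi0 : i = i0
      · rw [if_pos hi0] at ei; exact ei.1
      · rw [if_neg hi0] at ei
        by_cases hi1 : i = i1
        · rw [if_pos hi1] at ei; exact ei.1
        · rw [if_neg hi1] at ei; exact ei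
    exact ⟨⟨fun i => (key i).1, fun i => (key i).2⟩, e0.2, e1.2⟩

/-- Volume of a sub-box of the unit cube cut out by conditions on two distinct coordinates. -/
theorem volume_box (i0 i1 : Fin d) (h : i0 ≠ i1) (A B : Set ℝ) :
    volume {x : Fin d → ℝ | x ∈ Set.Icc (0 : Fin d → ℝ) 1 ∧ x i0 ∈ A ∧ x i1 ∈ B}
      = volume (Set.Icc (0:ℝ) 1 ∩ A) * volume (Set.Icc (0:ℝ) 1 ∩ B) := by
  rw [box_eq_pi i0 i1 h A B, MeasureTheory.volume_pi_pi]
  rw [Finset.prod_eq_mul i0 i1 h]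
  · rw [if_pos rfl, if_neg (Ne.symm h), if_pos rfl]
  · intro c _ hc
    rw [if_neg hc.1, if_neg hc.2]
    simp
  · intro hh; exact absurd (Finset.mem_univ _) hh
  · intro hh; exact absurd (Finset.mem_univ _) hh


/-! ### One-dimensional pieces -/

theorem vol_Icc_inter_univ : volume (Set.Icc (0:ℝ) 1 ∩ Set.univ) = 1 := by
  rw [Set.inter_univ, Real.volume_Icc]; simp

theorem vol_Icc_inter_Ioi {c : ℝ} (hc0 : 0 ≤ c) (_hc1 : c ≤ 1) :
    volume (Set.Icc (0:ℝ) 1 ∩ Set.Ioi c) = ENNReal.ofReal (1 - c) := by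
  have : Set.Icc (0:ℝ) 1 ∩ Set.Ioi c = Set.Ioc c 1 := by
    ext y
    simp only [Set.mem_inter_iff, Set.mem_Icc, Set.mem_Ioi, Set.mem_Ioc]
    constructor
    · rintro ⟨⟨_, h1⟩, h2⟩; exact ⟨h2, h1⟩
    · rintro ⟨h2, h1⟩; exact ⟨⟨by linarith, h1⟩, h2⟩
  rw [this, Real.volume_Ioc]

theorem vol_Icc_inter_Iic {c : ℝ} (_hc0 : 0 ≤ c) (hc1 : c ≤ 1) :
    volume (Set.Icc (0:ℝ) 1 ∩ Set.Iic c) = ENNReal.ofReal c := by
  have : Set.Icc (0:ℝ) 1 ∩ Set.Iic c = Set.Icc 0 c := by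
    ext y
    simp only [Set.mem_inter_iff, Set.mem_Icc, Set.mem_Iic]
    constructor
    · rintro ⟨⟨h0, _⟩, h2⟩; exact ⟨h0, h2⟩
    · rintro ⟨h0, h2⟩; exact ⟨⟨h0, by linarith⟩, h2⟩
  rw [this, Real.volume_Icc]; simp

/-! ### The sets of the construction -/

/-- The unit cube. -/
def cube (d : ℕ) : Set (Fin d → ℝ) := Set.Icc 0 1

/-- The strip `{x ∈ cube | 1 - a < x i0}`. -/
def strip (i0 : Fin d) (a : ℝ) : Set (Fin d → ℝ) := {x | x ∈ cube d ∧ 1 - a < x i0}

/-- The lower half of the strip. -/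
def stripLow (i0 i1 : Fin d) (a : ℝ) : Set (Fin d → ℝ) :=
  {x | x ∈ cube d ∧ 1 - a < x i0 ∧ x i1 ≤ 1 / 2}

/-- The corner region `{x ∈ cube | 1 + t/2 < x i0 + t * x i1}`. -/
def corner (i0 i1 : Fin d) (t : ℝ) : Set (Fin d → ℝ) :=
  {x | x ∈ cube d ∧ 1 + t / 2 < x i0 + t * x i1}

theorem volume_cube : volume (cube d) = 1 := by
  unfold cube
  rw [Real.volume_Icc_pi]
  simp

theorem measurableSet_cube : MeasurableSet (cube d) := measurableSet_Icc

theorem strip_subset_cube (i0 : Fin d) (a : ℝ) : strip i0 a ⊆ cube d := fun _ hx => hx.1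

theorem corner_subset_cube (i0 i1 : Fin d) (t : ℝ) : corner i0 i1 t ⊆ cube d := fun _ hx => hx.1

theorem measurableSet_strip (i0 : Fin d) (a : ℝ) : MeasurableSet (strip i0 a) := by
  have : strip i0 a = cube d ∩ (fun x : Fin d → ℝ => x i0) ⁻¹' Set.Ioi (1 - a) := by
    ext x; rfl
  rw [this]
  exact measurableSet_cube.inter ((measurable_pi_apply i0) measurableSet_Ioi)

theorem measurableSet_stripLow (i0 i1 : Fin d) (a : ℝ) : MeasurableSet (stripLow i0 i1 a) := by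
  have : stripLow i0 i1 a = cube d ∩ ((fun x : Fin d → ℝ => x i0) ⁻¹' Set.Ioi (1 - a)
      ∩ (fun x : Fin d → ℝ => x i1) ⁻¹' Set.Iic (1 / 2)) := by
    ext x; rfl
  rw [this]
  exact measurableSet_cube.inter
    (((measurable_pi_apply i0) measurableSet_Ioi).inter ((measurable_pi_apply i1) measurableSet_Iic))

theorem measurableSet_corner (i0 i1 : Fin d) (t : ℝ) : MeasurableSet (corner i0 i1 t) := by
  have : corner i0 i1 t = cube d ∩ (fun x : Fin d → ℝ => x i0 + t * x i1) ⁻¹' Set.Ioi (1 + t / 2) := by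
    ext x; rfl
  rw [this]
  have hm : Measurable (fun x : Fin d → ℝ => x i0 + t * x i1) := by fun_prop
  exact measurableSet_cube.inter (hm measurableSet_Ioi)

/-- The strip of width `a` has volume `a`. -/
theorem volume_strip (i0 i1 : Fin d) (h : i0 ≠ i1) {a : ℝ} (ha0 : 0 ≤ a) (ha1 : a ≤ 1) :
    volume (strip i0 a) = ENNReal.ofReal a := by
  have : strip i0 a = {x : Fin d → ℝ | x ∈ Set.Icc (0 : Fin d → ℝ) 1 ∧ x i0 ∈ Set.Ioi (1 - a)
      ∧ x i1 ∈ Set.univ} := by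
    ext x; simp [strip, cube]
  rw [this, volume_box i0 i1 h, vol_Icc_inter_Ioi (by linarith) (by linarith), vol_Icc_inter_univ]
  simp

/-- The lower half of the strip of width `a` has volume `a / 2`. -/
theorem volume_stripLow (i0 i1 : Fin d) (h : i0 ≠ i1) {a : ℝ} (ha0 : 0 ≤ a) (ha1 : a ≤ 1) :
    volume (stripLow i0 i1 a) = ENNReal.ofReal (a / 2) := by
  have : stripLow i0 i1 a = {x : Fin d → ℝ | x ∈ Set.Icc (0 : Fin d → ℝ) 1 ∧ x i0 ∈ Set.Ioi (1 - a)
      ∧ x i1 ∈ Set.Iic (1 / 2)} := by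
    ext x; simp [stripLow, cube]
  rw [this, volume_box i0 i1 h, vol_Icc_inter_Ioi (by linarith) (by linarith),
    vol_Icc_inter_Iic (by norm_num) (by norm_num), ← ENNReal.ofReal_mul (by linarith)]
  congr 1; ring

theorem stripLow_subset_strip (i0 i1 : Fin d) (a : ℝ) : stripLow i0 i1 a ⊆ strip i0 a :=
  fun _ hx => ⟨hx.1, hx.2.1⟩

/-- The corner region lies in the upper half of the cube. -/
theorem corner_upper (i0 i1 : Fin d) {t : ℝ} (ht : 0 < t) {x : Fin d → ℝ}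
    (hx : x ∈ corner i0 i1 t) : 1 / 2 < x i1 := by
  obtain ⟨hc, hlt⟩ := hx
  have h1 : x i0 ≤ 1 := hc.2 i0
  by_contra hcon
  have hle : x i1 ≤ 1 / 2 := not_lt.mp hcon
  have : t * x i1 ≤ t * (1 / 2) := mul_le_mul_of_nonneg_left hle ht.le
  linarith

/-- The lower half of the strip is disjoint from the corner region. -/
theorem stripLow_disjoint_corner (i0 i1 : Fin d) {t : ℝ} (ht : 0 < t) (a : ℝ) :
    Disjoint (stripLow i0 i1 a) (corner i0 i1 t) := by
  rw [Set.disjoint_left]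
  intro x hx hx'
  have := corner_upper i0 i1 ht hx'
  have := hx.2.2
  linarith

/-- The corner region has volume at least `t / 16`. -/
theorem volume_corner_ge (i0 i1 : Fin d) (h : i0 ≠ i1) {t : ℝ} (ht : 0 < t) (ht1 : t ≤ 1) :
    ENNReal.ofReal (t / 16) ≤ volume (corner i0 i1 t) := by
  have hsub : {x : Fin d → ℝ | x ∈ Set.Icc (0 : Fin d → ℝ) 1 ∧ x i0 ∈ Set.Ioi (1 - t / 4)
      ∧ x i1 ∈ Set.Ioi (3 / 4)} ⊆ corner i0 i1 t := by
    rintro x ⟨hc, h0, h1⟩
    refine ⟨hc, ?_⟩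
    simp only [Set.mem_Ioi] at h0 h1
    have : t * (3 / 4) < t * x i1 := mul_lt_mul_of_pos_left h1 ht
    linarith
  have hv : volume {x : Fin d → ℝ | x ∈ Set.Icc (0 : Fin d → ℝ) 1 ∧ x i0 ∈ Set.Ioi (1 - t / 4)
      ∧ x i1 ∈ Set.Ioi (3 / 4)} = ENNReal.ofReal (t / 16) := by
    rw [volume_box i0 i1 h, vol_Icc_inter_Ioi (by linarith) (by linarith),
      vol_Icc_inter_Ioi (by norm_num) (by norm_num), ← ENNReal.ofReal_mul (by linarith)]
    congr 1; ring
  rw [← hv]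
  exact measure_mono hsub

/-- The corner region has volume at most `1 / 2`. -/
theorem volume_corner_le (i0 i1 : Fin d) (h : i0 ≠ i1) {t : ℝ} (ht : 0 < t) :
    volume (corner i0 i1 t) ≤ ENNReal.ofReal (1 / 2) := by
  have hsub : corner i0 i1 t ⊆ {x : Fin d → ℝ | x ∈ Set.Icc (0 : Fin d → ℝ) 1 ∧ x i0 ∈ Set.univ
      ∧ x i1 ∈ Set.Ioi (1 / 2)} := by
    intro x hx
    exact ⟨hx.1, Set.mem_univ _, corner_upper i0 i1 ht hx⟩
  have hv : volume {x : Fin d → ℝ | x ∈ Set.Icc (0 : Fin d → ℝ) 1 ∧ x i0 ∈ Set.univ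
      ∧ x i1 ∈ Set.Ioi (1 / 2)} = ENNReal.ofReal (1 / 2) := by
    have hsw : {x : Fin d → ℝ | x ∈ Set.Icc (0 : Fin d → ℝ) 1 ∧ x i0 ∈ Set.univ
        ∧ x i1 ∈ Set.Ioi (1 / 2)} = {x : Fin d → ℝ | x ∈ Set.Icc (0 : Fin d → ℝ) 1
        ∧ x i1 ∈ Set.Ioi (1 / 2) ∧ x i0 ∈ Set.univ} := by
      ext x; simp
    rw [hsw, volume_box i1 i0 (Ne.symm h), vol_Icc_inter_Ioi (by norm_num) (by norm_num),
      vol_Icc_inter_univ]
    norm_num
  rw [← hv]
  exact measure_mono hsub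

/-- Summary: with `a := (volume (corner i0 i1 t)).toReal` one has `t/16 ≤ a ≤ 1/2`, the strip of
width `a` has the same volume as the corner region, and its lower half has volume `a/2` and is
disjoint from the corner region. -/
theorem exists_width (i0 i1 : Fin d) (h : i0 ≠ i1) {t : ℝ} (ht : 0 < t) (ht1 : t ≤ 1) :
    ∃ a : ℝ, t / 16 ≤ a ∧ a ≤ 1 / 2 ∧
      volume (corner i0 i1 t) = ENNReal.ofReal a ∧
      volume (strip i0 a) = ENNReal.ofReal a ∧
      volume (stripLow i0 i1 a) = ENNReal.ofReal (a / 2) := by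
  have hle := volume_corner_le i0 i1 h ht
  have hge := volume_corner_ge i0 i1 h ht ht1
  have hfin : volume (corner i0 i1 t) ≠ ⊤ := ne_top_of_le_ne_top ENNReal.ofReal_ne_top hle
  refine ⟨(volume (corner i0 i1 t)).toReal, ?_, ?_, ?_, ?_, ?_⟩
  · have := ENNReal.toReal_mono hfin hge
    rwa [ENNReal.toReal_ofReal (by linarith)] at this
  · have := ENNReal.toReal_mono ENNReal.ofReal_ne_top hle
    rwa [ENNReal.toReal_ofReal (by norm_num)] at this
  · exact (ENNReal.ofReal_toReal hfin).symm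
  · have h1 : (volume (corner i0 i1 t)).toReal ≤ 1 / 2 := by
      have := ENNReal.toReal_mono ENNReal.ofReal_ne_top hle
      rwa [ENNReal.toReal_ofReal (by norm_num)] at this
    exact volume_strip i0 i1 h ENNReal.toReal_nonneg (by linarith)
  · have h1 : (volume (corner i0 i1 t)).toReal ≤ 1 / 2 := by
      have := ENNReal.toReal_mono ENNReal.ofReal_ne_top hle
      rwa [ENNReal.toReal_ofReal (by norm_num)] at this
    exact volume_stripLow i0 i1 h ENNReal.toReal_nonneg (by linarith)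

end Vale.Agent.Helper27.P074Box
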