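import Mathlib

/-!
Statement layer for P074 (stability exponent of quadratic optimal transport maps), on `Fin d → ℝ`
with the Euclidean distance written out explicitly.
-/

namespace Vale.Agent.Helper27.P074Defs

open MeasureTheory

/-- Squared Euclidean distance on `Fin d → ℝ`. -/
def sqDist {d : ℕ} (x y : Fin d → ℝ) : ℝ := ∑ i, (x i - y i) ^ 2

/-- The uniform probability measure on `K` (normalised Lebesgue measure restricted to `K`). -/
noncomputable def unif {d : ℕ} (K : Set (Fin d → ℝ)) : Measure (Fin d → ℝ) :=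
  (volume K)⁻¹ • volume.restrict K

/-- The squared `L^2` distance `∫_K |F x - G x|^2 dρ(x)` between two maps, `ρ` uniform on `K`. -/
noncomputable def sqL2 {d : ℕ} (K : Set (Fin d → ℝ)) (F G : (Fin d → ℝ) → (Fin d → ℝ)) :
    ENNReal :=
  ∫⁻ x, ENNReal.ofReal (sqDist (F x) (G x)) ∂(unif K)

/-- `T` is a quadratic optimal transport map from the uniform measure on `K` to `μ`: it is Borel,
pushes the uniform measure to `μ`, and minimises `∫_K |x - T x|^2 dρ(x)` among such maps. -/
def IsOptMap {d : ℕ} (K : Set (Fin d → ℝ)) (μ : Measure (Fin d → ℝ))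
    (T : (Fin d → ℝ) → (Fin d → ℝ)) : Prop :=
  Measurable T ∧ (unif K).map T = μ ∧
    ∀ T' : (Fin d → ℝ) → (Fin d → ℝ), Measurable T' → (unif K).map T' = μ →
      sqL2 K (fun x => x) T ≤ sqL2 K (fun x => x) T'

/-- The squared Wasserstein distance `W_2(μ, ν)^2`: the infimum over couplings of the integral
of the squared Euclidean distance. -/
noncomputable def W2sq {d : ℕ} (μ ν : Measure (Fin d → ℝ)) : ENNReal :=
  ⨅ π : {π : Measure ((Fin d → ℝ) × (Fin d → ℝ)) // π.map Prod.fst = μ ∧ π.map Prod.snd = ν},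
    ∫⁻ p, ENNReal.ofReal (sqDist p.1 p.2) ∂π.1

/-- The exponent `α` is admissible in dimension `d`: for every compact convex `K` with nonempty
interior and every nonempty compact `Y` there is a constant `C` with
`‖T_μ - T_ν‖_{L^2(ρ)} ≤ C * W_2(μ, ν)^α` for all Borel probability measures `μ, ν` carried
by `Y` (and all optimal maps `T_μ`, `T_ν`). -/
def Admissible (d : ℕ) (α : ℝ) : Prop :=
  ∀ K : Set (Fin d → ℝ), IsCompact K → Convex ℝ K → (interior K).Nonempty →
    ∀ Y : Set (Fin d → ℝ), IsCompact Y → Y.Nonempty →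
      ∃ C : ℝ, ∀ μ ν : Measure (Fin d → ℝ), IsProbabilityMeasure μ → IsProbabilityMeasure ν →
        μ Y = 1 → ν Y = 1 →
        ∀ Tμ Tν : (Fin d → ℝ) → (Fin d → ℝ), IsOptMap K μ Tμ → IsOptMap K ν Tν →
          (sqL2 K Tμ Tν) ^ (1 / 2 : ℝ) ≤ ENNReal.ofReal C * ((W2sq μ ν) ^ (1 / 2 : ℝ)) ^ α

end Vale.Agent.Helper27.P074Defs
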