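import Vale.Agent.Helper27.P074Three

/-!
# From a family of strip/wedge configurations to the failure of every exponent above 1/3

`not_bound_of_family`: let `ρ` be a probability measure on `Fin d → ℝ` and `Y` a measurable
set containing the sites `-e, 0, e` and `t e'` for `0 < t ≤ 1`. Suppose that for every small
`t > 0` there are a strip `{b0 ≤ x i0 < b1}` and a wedge `{|x i0 - p| ≤ t (x i1 - h)}` such
that the three cells of the two configurations have equal masses, the strip has mass at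
least `c t`, and the part of the strip outside the wedge has at least the fraction `κ` of the
mass of the strip. Then for `α > 1/3` there is no constant `C` with
`‖S - T‖_{L^2(ρ)} ≤ C W_2(μ, ν) ^ α` for all optimal maps `S`, `T` from `ρ` onto probability
measures `μ`, `ν` carried by `Y`.
-/

namespace Vale.Agent.Helper27.P074Fam

open MeasureTheory
open Vale.Agent.Helper16.OT
open Vale.Agent.Helper27.P074Gen
open Vale.Agent.Helper27.P074Three

/-- Final arithmetic, exponents at most one. -/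
theorem exists_small_t_le_one {α : ℝ} (hα : 1 / 3 < α) (hα1 : α ≤ 1) (C : ℝ) {c κ t0 : ℝ}
    (hc : 0 < c) (hκ : 0 < κ) (ht0 : 0 < t0) :
    ∃ t : ℝ, 0 < t ∧ t ≤ t0 ∧ t ≤ 1 ∧ ∀ a : ℝ, c * t ≤ a → a ≤ 1 →
      C ^ 2 * (a * t ^ 2) ^ α < κ * a := by
  set e : ℝ := 3 * α - 1 with he
  have he0 : 0 < e := by rw [he]; linarith
  set m : ℝ := min c 1 with hm
  have hm0 : 0 < m := lt_min hc one_pos
  have hm1 : m ≤ 1 := min_le_right _ _
  have hmc : m ≤ c := min_le_left _ _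
  set q : ℝ := κ * m / (C ^ 2 + 1) with hq
  have hC1 : 0 < C ^ 2 + 1 := by positivity
  have hq0 : 0 < q := by rw [hq]; positivity
  set t : ℝ := min (min t0 1) (q ^ (1 / e)) with ht
  have hqe : 0 < q ^ (1 / e) := Real.rpow_pos_of_pos hq0 _
  have htpos : 0 < t := lt_min (lt_min ht0 one_pos) hqe
  have htt0 : t ≤ t0 := (min_le_left _ _).trans (min_le_left _ _)
  have ht1 : t ≤ 1 := (min_le_left _ _).trans (min_le_right _ _)
  have hte : t ^ e ≤ q := by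
    have h1 : t ≤ q ^ (1 / e) := min_le_right _ _
    have h2 : t ^ e ≤ (q ^ (1 / e)) ^ e := Real.rpow_le_rpow htpos.le h1 he0.le
    rwa [← Real.rpow_mul hq0.le, one_div, inv_mul_cancel₀ he0.ne', Real.rpow_one] at h2
  refine ⟨t, htpos, htt0, ht1, ?_⟩
  intro a ha1 ha2
  have ha0 : 0 < a := lt_of_lt_of_le (by positivity) ha1
  have h1 : (a * t ^ 2) ^ α = a ^ α * t ^ (2 * α) := by
    rw [Real.mul_rpow ha0.le (by positivity)]
    congr 1
    rw [← Real.rpow_natCast, ← Real.rpow_mul htpos.le]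
    norm_num
  have h2 : a = a ^ α * a ^ (1 - α) := by
    rw [← Real.rpow_add ha0]
    have : α + (1 - α) = 1 := by ring
    rw [this, Real.rpow_one]
  have h1α : 0 ≤ 1 - α := by linarith
  have h3 : (c * t) ^ (1 - α) ≤ a ^ (1 - α) :=
    Real.rpow_le_rpow (by positivity) ha1 h1α
  have h4 : (c * t) ^ (1 - α) = c ^ (1 - α) * t ^ (1 - α) :=
    Real.mul_rpow hc.le htpos.le
  have h5 : m ≤ c ^ (1 - α) := by
    have hA : m ^ (1 - α) ≤ c ^ (1 - α) := Real.rpow_le_rpow hm0.le hmc h1α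
    have hB : m ^ (1 : ℝ) ≤ m ^ (1 - α) :=
      Real.rpow_le_rpow_of_exponent_ge hm0 hm1 (by linarith)
    rw [Real.rpow_one] at hB
    exact hB.trans hA
  have ht2 : 0 < t ^ (2 * α) := Real.rpow_pos_of_pos htpos _
  have ht3 : 0 < t ^ (1 - α) := Real.rpow_pos_of_pos htpos _
  have h6 : t ^ (2 * α) * t ^ e = t ^ (2 * α) * t ^ e := rfl
  have h7 : t ^ (1 - α) * t ^ e = t ^ (2 * α) := by
    rw [← Real.rpow_add htpos]
    congr 1; rw [he]; ring
  have haα : 0 < a ^ α := Real.rpow_pos_of_pos ha0 _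
  -- the key comparison
  have h8 : C ^ 2 * t ^ (2 * α) < κ * a ^ (1 - α) := by
    have hx : C ^ 2 * t ^ e ≤ C ^ 2 * q := mul_le_mul_of_nonneg_left hte (sq_nonneg C)
    have hy : C ^ 2 * q < κ * m := by
      rw [hq]
      have : C ^ 2 * (κ * m / (C ^ 2 + 1)) = κ * m * (C ^ 2 / (C ^ 2 + 1)) := by
        field_simp
      rw [this]
      have hfrac : C ^ 2 / (C ^ 2 + 1) < 1 := by
        rw [div_lt_one hC1]; linarith
      have hκm : 0 < κ * m := by positivity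
      nlinarith
    have hz : κ * m * t ^ (1 - α) ≤ κ * a ^ (1 - α) := by
      have : m * t ^ (1 - α) ≤ a ^ (1 - α) := by
        calc m * t ^ (1 - α) ≤ c ^ (1 - α) * t ^ (1 - α) :=
              mul_le_mul_of_nonneg_right h5 ht3.le
          _ = (c * t) ^ (1 - α) := h4.symm
          _ ≤ a ^ (1 - α) := h3
      nlinarith
    calc C ^ 2 * t ^ (2 * α) = (C ^ 2 * t ^ e) * t ^ (1 - α) := by rw [← h7]; ring
      _ ≤ (C ^ 2 * q) * t ^ (1 - α) := mul_le_mul_of_nonneg_right hx ht3.le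
      _ < (κ * m) * t ^ (1 - α) := mul_lt_mul_of_pos_right hy ht3
      _ ≤ κ * a ^ (1 - α) := hz
  calc C ^ 2 * (a * t ^ 2) ^ α = a ^ α * (C ^ 2 * t ^ (2 * α)) := by rw [h1]; ring
    _ < a ^ α * (κ * a ^ (1 - α)) := mul_lt_mul_of_pos_left h8 haα
    _ = κ * (a ^ α * a ^ (1 - α)) := by ring
    _ = κ * a := by rw [← h2]

/-- Final arithmetic, all exponents above one third. -/
theorem exists_small_t {α : ℝ} (hα : 1 / 3 < α) (C : ℝ) {c κ t0 : ℝ}
    (hc : 0 < c) (hκ : 0 < κ) (ht0 : 0 < t0) :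
    ∃ t : ℝ, 0 < t ∧ t ≤ t0 ∧ t ≤ 1 ∧ ∀ a : ℝ, c * t ≤ a → a ≤ 1 →
      C ^ 2 * (a * t ^ 2) ^ α < κ * a := by
  by_cases hα1 : α ≤ 1
  · exact exists_small_t_le_one hα hα1 C hc hκ ht0
  · have h1 : (1 : ℝ) < α := not_le.mp hα1
    obtain ⟨t, htpos, htt0, ht1, h⟩ :=
      exists_small_t_le_one (α := 1) (by norm_num) le_rfl C hc hκ ht0
    refine ⟨t, htpos, htt0, ht1, ?_⟩
    intro a ha1 ha2
    have ha0 : 0 < a := lt_of_lt_of_le (by positivity) ha1
    have hb0 : 0 < a * t ^ 2 := by positivity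
    have hb1 : a * t ^ 2 ≤ 1 := by
      have : t ^ 2 ≤ 1 := by nlinarith
      nlinarith
    have hmono : (a * t ^ 2) ^ α ≤ (a * t ^ 2) ^ (1 : ℝ) :=
      Real.rpow_le_rpow_of_exponent_ge hb0 hb1 h1.le
    have := h a ha1 ha2
    nlinarith [sq_nonneg C]

variable {d : ℕ}

/-- The part of the strip outside the wedge. -/
def stripOutside (i0 i1 : Fin d) (b0 b1 p h t : ℝ) : Set (Fin d → ℝ) :=
  {x | b0 ≤ x i0 ∧ x i0 < b1 ∧ ¬ |x i0 - p| ≤ t * (x i1 - h)}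

theorem measurableSet_stripOutside (i0 i1 : Fin d) (b0 b1 p h t : ℝ) :
    MeasurableSet (stripOutside i0 i1 b0 b1 p h t) := by
  have h1 : Measurable fun x : Fin d → ℝ => |x i0 - p| := by fun_prop
  have h2 : Measurable fun x : Fin d → ℝ => t * (x i1 - h) := by fun_prop
  have m1 : MeasurableSet {x : Fin d → ℝ | b0 ≤ x i0} :=
    measurableSet_le measurable_const (measurable_pi_apply i0)
  have m2 : MeasurableSet {x : Fin d → ℝ | x i0 < b1} :=
    measurableSet_lt (measurable_pi_apply i0) measurable_const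
  have m3 : MeasurableSet {x : Fin d → ℝ | |x i0 - p| ≤ t * (x i1 - h)} :=
    measurableSet_le h1 h2
  exact m1.inter (m2.inter m3.compl)

/-- The estimates for one strip/wedge configuration with equal cell masses. -/
theorem strip_wedge_estimates (ρ : Measure (Fin d → ℝ)) [IsProbabilityMeasure ρ]
    {i0 i1 : Fin d} (h01 : i0 ≠ i1) {b0 b1 : ℝ} (hb : b0 ≤ b1) (p h t : ℝ)
    (hmass : ∀ i, ρ (idxStrip i0 b0 b1 ⁻¹' {i}) = ρ (idxWedge i0 i1 p h t ⁻¹' {i})) :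
    IsOptMap ρ (ρ.map (stripMap i0 b0 b1)) (stripMap i0 b0 b1) ∧
    IsOptMap ρ (ρ.map (wedgeMap i0 i1 p h t)) (wedgeMap i0 i1 p h t) ∧
    W2 (ρ.map (stripMap i0 b0 b1)) (ρ.map (wedgeMap i0 i1 p h t)) ^ 2
      ≤ (ρ (idxStrip i0 b0 b1 ⁻¹' {1})).toReal * t ^ 2 ∧
    (ρ (stripOutside i0 i1 b0 b1 p h t)).toReal
      ≤ L2dist ρ (stripMap i0 b0 b1) (wedgeMap i0 i1 p h t) ^ 2 := by
  refine ⟨isOptMap_stripMap ρ i0 hb, isOptMap_wedgeMap ρ h01 p h t, ?_, ?_⟩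
  · have hle := W2sq_strip_wedge_le ρ i0 i1 b0 b1 p h t hmass
    unfold W2
    rw [Real.sq_sqrt ENNReal.toReal_nonneg]
    have hfin : ENNReal.ofReal (t ^ 2) * ρ (idxStrip i0 b0 b1 ⁻¹' {1}) ≠ ⊤ :=
      ENNReal.mul_ne_top ENNReal.ofReal_ne_top (measure_ne_top ρ _)
    have h2 := ENNReal.toReal_mono hfin hle
    rw [ENNReal.toReal_mul, ENNReal.toReal_ofReal (sq_nonneg t)] at h2
    linarith
  · have h1 := sq_L2dist_ge ρ (stripMap i0 b0 b1) (wedgeMap i0 i1 p h t)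
      (measurableSet_stripOutside i0 i1 b0 b1 p h t) (c := 1) (B := 4 + t ^ 2) zero_le_one
      (fun x hx => le_of_eq (sqDist_strip_wedge i0 i1 b0 b1 p h t x hx.1 hx.2.1 hx.2.2).symm)
      (fun x => sqDist_strip_wedge_le h01 b0 b1 p h t x)
    linarith

/-- The push-forward under a map with values in `Y` is carried by `Y`. -/
theorem map_compl_eq_zero (ρ : Measure (Fin d → ℝ)) {Y : Set (Fin d → ℝ)}
    (hY : MeasurableSet Y) {S : (Fin d → ℝ) → (Fin d → ℝ)} (hS : Measurable S)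
    (hSY : ∀ x, S x ∈ Y) : (ρ.map S) (compl Y) = 0 := by
  rw [Measure.map_apply hS hY.compl]
  have : S ⁻¹' (compl Y) = ∅ := by
    ext x
    simp [hSY x]
  rw [this]
  simp

/-- From a family of strip/wedge configurations to the failure of the exponent `α > 1/3`. -/
theorem not_bound_of_family (ρ : Measure (Fin d → ℝ)) [IsProbabilityMeasure ρ]
    {Y : Set (Fin d → ℝ)} (hY : MeasurableSet Y) {i0 i1 : Fin d} (h01 : i0 ≠ i1)
    (hYA : ∀ k, sitesA i0 k ∈ Y)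
    (hYB : ∀ t : ℝ, 0 < t → t ≤ 1 → ∀ k, sitesB i0 i1 t k ∈ Y)
    {α : ℝ} (hα : 1 / 3 < α) {c κ t0 : ℝ} (hc : 0 < c) (hκ : 0 < κ) (ht0 : 0 < t0)
    (hfam : ∀ t : ℝ, 0 < t → t ≤ t0 → t ≤ 1 → ∃ b0 b1 p h : ℝ, b0 ≤ b1 ∧
      (∀ i, ρ (idxStrip i0 b0 b1 ⁻¹' {i}) = ρ (idxWedge i0 i1 p h t ⁻¹' {i})) ∧
      c * t ≤ (ρ (idxStrip i0 b0 b1 ⁻¹' {1})).toReal ∧
      κ * (ρ (idxStrip i0 b0 b1 ⁻¹' {1})).toReal
        ≤ (ρ (stripOutside i0 i1 b0 b1 p h t)).toReal) :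
    ¬ ∃ C : ℝ, ∀ μ ν : Measure (Fin d → ℝ),
      IsProbabilityMeasure μ → IsProbabilityMeasure ν → μ (compl Y) = 0 → ν (compl Y) = 0 →
      ∀ S T : (Fin d → ℝ) → (Fin d → ℝ), IsOptMap ρ μ S → IsOptMap ρ ν T →
        L2dist ρ S T ≤ C * W2 μ ν ^ α := by
  rintro ⟨C, hC⟩
  obtain ⟨t, htpos, htt0, ht1, hsmall⟩ := exists_small_t hα C hc hκ ht0
  obtain ⟨b0, b1, p, h, hb, hmass, hlow, hfrac⟩ := hfam t htpos htt0 ht1
  obtain ⟨hoS, hoT, hW, hL⟩ := strip_wedge_estimates ρ h01 hb p h t hmass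
  set S := stripMap i0 b0 b1 with hSdef
  set T := wedgeMap i0 i1 p h t with hTdef
  set a : ℝ := (ρ (idxStrip i0 b0 b1 ⁻¹' {1})).toReal with ha
  have hSm : Measurable S := hoS.1
  have hTm : Measurable T := hoT.1
  have hprobS : IsProbabilityMeasure (ρ.map S) :=
    Measure.isProbabilityMeasure_map hSm.aemeasurable
  have hprobT : IsProbabilityMeasure (ρ.map T) :=
    Measure.isProbabilityMeasure_map hTm.aemeasurable
  have hsuppS : (ρ.map S) (compl Y) = 0 :=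
    map_compl_eq_zero ρ hY hSm (fun x => hYA _)
  have hsuppT : (ρ.map T) (compl Y) = 0 :=
    map_compl_eq_zero ρ hY hTm (fun x => hYB t htpos ht1 _)
  have hbound := hC (ρ.map S) (ρ.map T) hprobS hprobT hsuppS hsuppT S T hoS hoT
  have ha1 : a ≤ 1 := by
    rw [ha]
    have h1 : ρ (idxStrip i0 b0 b1 ⁻¹' {1}) ≤ 1 := prob_le_one
    have := ENNReal.toReal_mono ENNReal.one_ne_top h1
    simpa using this
  have hkey := hsmall a hlow ha1
  -- the chain of inequalities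
  have hW0 : 0 ≤ W2 (ρ.map S) (ρ.map T) := Real.sqrt_nonneg _
  have hL0 : 0 ≤ L2dist ρ S T := Real.sqrt_nonneg _
  have hα0 : 0 ≤ α := by linarith
  have hpow0 : 0 ≤ W2 (ρ.map S) (ρ.map T) ^ α := Real.rpow_nonneg hW0 α
  have hsq : L2dist ρ S T ^ 2 ≤ C ^ 2 * (W2 (ρ.map S) (ρ.map T) ^ α) ^ 2 := by
    have h1 : L2dist ρ S T ≤ |C| * W2 (ρ.map S) (ρ.map T) ^ α :=
      hbound.trans (mul_le_mul_of_nonneg_right (le_abs_self C) hpow0)
    have h2 : L2dist ρ S T ^ 2 ≤ (|C| * W2 (ρ.map S) (ρ.map T) ^ α) ^ 2 :=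
      pow_le_pow_left₀ hL0 h1 2
    rwa [mul_pow, sq_abs] at h2
  have hswap : (W2 (ρ.map S) (ρ.map T) ^ α) ^ 2 = (W2 (ρ.map S) (ρ.map T) ^ 2) ^ α := by
    rw [← Real.rpow_natCast, ← Real.rpow_mul hW0, ← Real.rpow_natCast, ← Real.rpow_mul hW0]
    congr 1
    ring
  have hmono : (W2 (ρ.map S) (ρ.map T) ^ 2) ^ α ≤ (a * t ^ 2) ^ α :=
    Real.rpow_le_rpow (sq_nonneg _) hW hα0
  have hfinal : κ * a ≤ C ^ 2 * (a * t ^ 2) ^ α := by
    calc κ * a ≤ (ρ (stripOutside i0 i1 b0 b1 p h t)).toReal := hfrac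
      _ ≤ L2dist ρ S T ^ 2 := hL
      _ ≤ C ^ 2 * (W2 (ρ.map S) (ρ.map T) ^ α) ^ 2 := hsq
      _ = C ^ 2 * (W2 (ρ.map S) (ρ.map T) ^ 2) ^ α := by rw [hswap]
      _ ≤ C ^ 2 * (a * t ^ 2) ^ α := mul_le_mul_of_nonneg_left hmono (sq_nonneg C)
  linarith

/-! ### The cells as explicit sets, and a version of the main lemma with explicit sets -/

theorem idxStrip_preimage_zero (i0 : Fin d) (b0 b1 : ℝ) :
    idxStrip i0 b0 b1 ⁻¹' {0} = {x | x i0 < b0} := by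
  ext x
  simp only [Set.mem_preimage, Set.mem_singleton_iff, Set.mem_ofPred_eq, idxStrip]
  by_cases h1 : x i0 < b0
  · simp [h1]
  · by_cases h2 : x i0 < b1 <;> simp [h1, h2]

theorem idxStrip_preimage_one (i0 : Fin d) (b0 b1 : ℝ) :
    idxStrip i0 b0 b1 ⁻¹' {1} = {x | b0 ≤ x i0 ∧ x i0 < b1} := by
  ext x
  simp only [Set.mem_preimage, Set.mem_singleton_iff, Set.mem_ofPred_eq, idxStrip]
  by_cases h1 : x i0 < b0
  · simp [h1, not_le.mpr h1]
  · by_cases h2 : x i0 < b1 <;> simp [h1, h2, not_lt.mp h1]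

theorem idxStrip_preimage_two (i0 : Fin d) {b0 b1 : ℝ} (hb : b0 ≤ b1) :
    idxStrip i0 b0 b1 ⁻¹' {2} = {x | b1 ≤ x i0} := by
  ext x
  simp only [Set.mem_preimage, Set.mem_singleton_iff, Set.mem_ofPred_eq, idxStrip]
  by_cases h1 : x i0 < b0
  · have : ¬ b1 ≤ x i0 := by
      intro h; linarith
    simp [h1, this]
  · by_cases h2 : x i0 < b1
    · simp [h1, h2, not_le.mpr h2]
    · simp [h1, h2, not_lt.mp h2]

theorem idxWedge_preimage_one (i0 i1 : Fin d) (p h t : ℝ) :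
    idxWedge i0 i1 p h t ⁻¹' {1} = {x | |x i0 - p| ≤ t * (x i1 - h)} := by
  ext x
  simp only [Set.mem_preimage, Set.mem_singleton_iff, Set.mem_ofPred_eq, idxWedge]
  by_cases h1 : |x i0 - p| ≤ t * (x i1 - h)
  · simp [h1]
  · by_cases h2 : x i0 < p <;> simp [h1, h2]

theorem idxWedge_preimage_zero (i0 i1 : Fin d) (p h t : ℝ) :
    idxWedge i0 i1 p h t ⁻¹' {0} = {x | ¬ |x i0 - p| ≤ t * (x i1 - h) ∧ x i0 < p} := by
  ext x
  simp only [Set.mem_preimage, Set.mem_singleton_iff, Set.mem_ofPred_eq, idxWedge]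
  by_cases h1 : |x i0 - p| ≤ t * (x i1 - h)
  · simp [h1]
  · by_cases h2 : x i0 < p <;> simp [h1, h2]

theorem idxWedge_preimage_two (i0 i1 : Fin d) (p h t : ℝ) :
    idxWedge i0 i1 p h t ⁻¹' {2} = {x | ¬ |x i0 - p| ≤ t * (x i1 - h) ∧ p ≤ x i0} := by
  ext x
  simp only [Set.mem_preimage, Set.mem_singleton_iff, Set.mem_ofPred_eq, idxWedge]
  by_cases h1 : |x i0 - p| ≤ t * (x i1 - h)
  · simp [h1]
  · by_cases h2 : x i0 < p
    · simp [h1, h2, not_le.mpr h2]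
    · simp [h1, h2, not_lt.mp h2]

/-- The masses of the three cells of a measurable index function add up to the total mass. -/
theorem sum_cells (ρ : Measure (Fin d → ℝ)) {idx : (Fin d → ℝ) → Fin 3}
    (hidx : Measurable idx) :
    ρ (idx ⁻¹' {0}) + ρ (idx ⁻¹' {1}) + ρ (idx ⁻¹' {2}) = ρ Set.univ := by
  have h := lintegral_comp_idx ρ hidx (fun _ => 1)
  rw [lintegral_one, Fin.sum_univ_three] at h
  simp only [one_mul] at h
  exact h.symm

/-- If the two outer cells have equal masses in both configurations, so has the middle one. -/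
theorem hmass_of_outer (ρ : Measure (Fin d → ℝ)) [IsFiniteMeasure ρ] (i0 i1 : Fin d)
    (b0 b1 p h t : ℝ)
    (h0 : ρ (idxStrip i0 b0 b1 ⁻¹' {0}) = ρ (idxWedge i0 i1 p h t ⁻¹' {0}))
    (h2 : ρ (idxStrip i0 b0 b1 ⁻¹' {2}) = ρ (idxWedge i0 i1 p h t ⁻¹' {2})) :
    ∀ i, ρ (idxStrip i0 b0 b1 ⁻¹' {i}) = ρ (idxWedge i0 i1 p h t ⁻¹' {i}) := by
  have hs := sum_cells ρ (measurable_idxStrip i0 b0 b1)
  have hw := sum_cells ρ (measurable_idxWedge i0 i1 p h t)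
  have h1 : ρ (idxStrip i0 b0 b1 ⁻¹' {1}) = ρ (idxWedge i0 i1 p h t ⁻¹' {1}) := by
    rw [← hw, h0, h2] at hs
    have hf0 : ρ (idxWedge i0 i1 p h t ⁻¹' {0}) ≠ ⊤ := measure_ne_top ρ _
    have hf2 : ρ (idxWedge i0 i1 p h t ⁻¹' {2}) ≠ ⊤ := measure_ne_top ρ _
    have e1 := (ENNReal.add_left_inj hf2).mp hs
    exact (ENNReal.add_right_inj hf0).mp e1
  intro i
  fin_cases i
  · exact h0
  · exact h1
  · exact h2

/-- Version of `not_bound_of_family` with the cells written as explicit sets: for every small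
`t` one needs `b0 ≤ b1`, `p`, `h` such that `{x i0 < b0}` has the mass of the part of the
complement of the wedge with `x i0 < p`, `{b1 ≤ x i0}` has the mass of the part with
`p ≤ x i0`, the wedge has mass at least `c t`, and the part of the strip `{b0 ≤ x i0 < b1}`
outside the wedge has mass at least `κ` times the mass of the wedge. -/
theorem not_bound_of_family' (ρ : Measure (Fin d → ℝ)) [IsProbabilityMeasure ρ]
    {Y : Set (Fin d → ℝ)} (hY : MeasurableSet Y) {i0 i1 : Fin d} (h01 : i0 ≠ i1)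
    (hYA : ∀ k, sitesA i0 k ∈ Y)
    (hYB : ∀ t : ℝ, 0 < t → t ≤ 1 → ∀ k, sitesB i0 i1 t k ∈ Y)
    {α : ℝ} (hα : 1 / 3 < α) {c κ t0 : ℝ} (hc : 0 < c) (hκ : 0 < κ) (ht0 : 0 < t0)
    (hfam : ∀ t : ℝ, 0 < t → t ≤ t0 → t ≤ 1 → ∃ b0 b1 p h : ℝ, b0 ≤ b1 ∧
      ρ {x | x i0 < b0} = ρ {x | ¬ |x i0 - p| ≤ t * (x i1 - h) ∧ x i0 < p} ∧
      ρ {x | b1 ≤ x i0} = ρ {x | ¬ |x i0 - p| ≤ t * (x i1 - h) ∧ p ≤ x i0} ∧
      c * t ≤ (ρ {x | |x i0 - p| ≤ t * (x i1 - h)}).toReal ∧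
      κ * (ρ {x | |x i0 - p| ≤ t * (x i1 - h)}).toReal
        ≤ (ρ (stripOutside i0 i1 b0 b1 p h t)).toReal) :
    ¬ ∃ C : ℝ, ∀ μ ν : Measure (Fin d → ℝ),
      IsProbabilityMeasure μ → IsProbabilityMeasure ν → μ (compl Y) = 0 → ν (compl Y) = 0 →
      ∀ S T : (Fin d → ℝ) → (Fin d → ℝ), IsOptMap ρ μ S → IsOptMap ρ ν T →
        L2dist ρ S T ≤ C * W2 μ ν ^ α := by
  refine not_bound_of_family ρ hY h01 hYA hYB hα hc hκ ht0 ?_
  intro t htpos htt0 ht1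
  obtain ⟨b0, b1, p, h, hb, h0, h2, hlow, hfrac⟩ := hfam t htpos htt0 ht1
  have hmass := hmass_of_outer ρ i0 i1 b0 b1 p h t
    (by rw [idxStrip_preimage_zero, idxWedge_preimage_zero]; exact h0)
    (by rw [idxStrip_preimage_two i0 hb, idxWedge_preimage_two]; exact h2)
  have hmid : ρ (idxStrip i0 b0 b1 ⁻¹' {1}) = ρ {x | |x i0 - p| ≤ t * (x i1 - h)} := by
    rw [hmass 1, idxWedge_preimage_one]
  refine ⟨b0, b1, p, h, hb, hmass, ?_, ?_⟩
  · rw [hmid]; exact hlow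
  · rw [hmid]; exact hfrac

end Vale.Agent.Helper27.P074Fam
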