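import Vale.Agent.Helper16.OT.Defs

/-!
# Generic lemmas on maps with finitely many values (for the stability exponent problem)

All statements are over the definitions of `Vale.Agent.Helper16.OT` (`sqDist`, `mapCost`,
`IsOptMap`, `W2sq`, `L2dist`) and hold for an arbitrary source measure `ρ` on `Fin d → ℝ`.
A map with finitely many values is written `fun x => y (idx x)` with sites
`y : Fin n → (Fin d → ℝ)` and a measurable index function `idx : (Fin d → ℝ) → Fin n`;
its cells are the sets `idx ⁻¹' {i}`.

* `isOptMap_of_potential`: if every point lies in the power cell of its own site, the map is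
  an optimal map onto its push-forward.
* `map_siteMap`: the push-forward is the sum of the weighted point masses at the sites.
* `W2sq_siteMap_le`: two such maps with equal cell masses have push-forwards whose squared
  Wasserstein distance is at most the weighted sum of the squared site displacements.
* `sq_L2dist_ge`: lower bound for the squared `L^2` distance of two maps.
-/

namespace Vale.Agent.Helper27.P074Gen

open MeasureTheory
open Vale.Agent.Helper16.OT

variable {d : ℕ}

theorem sqDist_nonneg' (x y : Fin d → ℝ) : 0 ≤ sqDist x y :=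
  Finset.sum_nonneg fun _ _ => sq_nonneg _

theorem measurable_siteMap {n : ℕ} (y : Fin n → (Fin d → ℝ)) {idx : (Fin d → ℝ) → Fin n}
    (hidx : Measurable idx) : Measurable (fun x => y (idx x)) :=
  (measurable_of_finite y).comp hidx

/-- The push-forward of `ρ` under a map with finitely many values. -/
theorem map_siteMap (ρ : Measure (Fin d → ℝ)) {n : ℕ} (y : Fin n → (Fin d → ℝ))
    {idx : (Fin d → ℝ) → Fin n} (hidx : Measurable idx) :
    ρ.map (fun x => y (idx x)) = ∑ i, ρ (idx ⁻¹' {i}) • Measure.dirac (y i) := by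
  have h1 : ρ.map (fun x => y (idx x)) = (ρ.map idx).map y :=
    (Measure.map_map (measurable_of_finite y) hidx).symm
  have h2 : ρ.map idx = ∑ i, (ρ.map idx) {i} • Measure.dirac i := by
    conv_lhs => rw [← Measure.sum_smul_dirac (ρ.map idx)]
    rw [Measure.sum_fintype]
  rw [h1]
  conv_lhs => rw [h2]
  ext s hs
  rw [Measure.map_apply (measurable_of_finite y) hs]
  simp only [Measure.coe_finsetSum, Measure.coe_smul, Finset.sum_apply, Pi.smul_apply,
    smul_eq_mul]
  refine Finset.sum_congr rfl fun i _ => ?_
  rw [Measure.map_apply hidx (measurableSet_singleton i)]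
  congr 1
  rw [Measure.dirac_apply' _ hs, Measure.dirac_apply' _ ((measurable_of_finite y) hs)]
  rfl

/-- Integral of a function of the index. -/
theorem lintegral_comp_idx (ρ : Measure (Fin d → ℝ)) {n : ℕ}
    {idx : (Fin d → ℝ) → Fin n} (hidx : Measurable idx) (g : Fin n → ENNReal) :
    ∫⁻ x, g (idx x) ∂ρ = ∑ i, g i * ρ (idx ⁻¹' {i}) := by
  rw [← lintegral_map (measurable_of_finite g) hidx, lintegral_fintype]
  refine Finset.sum_congr rfl fun i _ => ?_
  rw [Measure.map_apply hidx (measurableSet_singleton i)]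

/-- Potential lemma: a map with finitely many values such that every point lies in the
power cell of its own site (with weights `ψ`) is an optimal map onto its push-forward. -/
theorem isOptMap_of_potential (ρ : Measure (Fin d → ℝ)) [IsFiniteMeasure ρ] {n : ℕ}
    (y : Fin n → (Fin d → ℝ)) (hy : Function.Injective y) (ψ : Fin n → ℝ)
    {idx : (Fin d → ℝ) → Fin n} (hidx : Measurable idx)
    (hmin : ∀ x j, sqDist x (y (idx x)) - ψ (idx x) ≤ sqDist x (y j) - ψ j) :
    IsOptMap ρ (ρ.map (fun x => y (idx x))) (fun x => y (idx x)) := by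
  classical
  have hT : Measurable (fun x => y (idx x)) := measurable_siteMap y hidx
  refine ⟨hT, rfl, ?_⟩
  intro T' hT' hmap
  -- a bound for the weights
  set M : ℝ := ∑ j, |ψ j| with hM
  have hψM : ∀ j, ψ j ≤ M := fun j =>
    (le_abs_self (ψ j)).trans (Finset.single_le_sum (f := fun j => |ψ j|)
      (fun i _ => abs_nonneg (ψ i)) (Finset.mem_univ j))
  have hψM' : ∀ j, -ψ j ≤ M := fun j =>
    (neg_le_abs (ψ j)).trans (Finset.single_le_sum (f := fun j => |ψ j|)
      (fun i _ => abs_nonneg (ψ i)) (Finset.mem_univ j))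
  -- the penalty function on the target side
  set G : (Fin d → ℝ) → ENNReal := fun z =>
    ∑ j, ({y j} : Set (Fin d → ℝ)).indicator (fun _ => ENNReal.ofReal (M - ψ j)) z with hG
  have hGm : Measurable G := by
    apply Finset.measurable_sum
    intro j _
    exact measurable_const.indicator (measurableSet_singleton (y j))
  have hGy : ∀ i, G (y i) = ENNReal.ofReal (M - ψ i) := by
    intro i
    simp only [hG]
    rw [Finset.sum_eq_single i]
    · simp
    · intro j _ hji
      have : y i ∉ ({y j} : Set (Fin d → ℝ)) := by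
        simp only [Set.mem_singleton_iff]
        intro h
        exact hji (hy h).symm
      simp [this]
    · intro h; exact absurd (Finset.mem_univ i) h
  -- the competitor takes its values among the sites almost everywhere
  have hrange : MeasurableSet (Set.range y) := (Set.finite_range y).measurableSet
  have hN : ρ (T' ⁻¹' (Set.range y)ᶜ) = 0 := by
    rw [← Measure.map_apply hT' hrange.compl, hmap, Measure.map_apply hT hrange.compl]
    have : (fun x => y (idx x)) ⁻¹' (Set.range y)ᶜ = ∅ := by
      ext x
      simp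
    rw [this]; simp
  have hae : ∀ᵐ x ∂ρ, T' x ∈ Set.range y := by
    rw [ae_iff]
    exact hN
  -- pointwise inequality
  have hpt : ∀ᵐ x ∂ρ,
      ENNReal.ofReal (sqDist x (y (idx x))) + G (y (idx x))
        ≤ ENNReal.ofReal (sqDist x (T' x)) + G (T' x) := by
    filter_upwards [hae] with x hx
    obtain ⟨j, hj⟩ := hx
    rw [← hj, hGy, hGy]
    rw [← ENNReal.ofReal_add (sqDist_nonneg' _ _) (by linarith [hψM (idx x)]),
      ← ENNReal.ofReal_add (sqDist_nonneg' _ _) (by linarith [hψM j])]
    apply ENNReal.ofReal_le_ofReal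
    have := hmin x j
    linarith
  have hint := lintegral_mono_ae hpt
  have hm1 : Measurable (fun x => G (y (idx x))) := hGm.comp hT
  have hm2 : Measurable (fun x => G (T' x)) := hGm.comp hT'
  rw [lintegral_add_right _ hm1, lintegral_add_right _ hm2] at hint
  have heq : ∫⁻ x, G (T' x) ∂ρ = ∫⁻ x, G (y (idx x)) ∂ρ := by
    rw [← lintegral_map hGm hT', ← lintegral_map hGm hT, hmap]
  have hfin : ∫⁻ x, G (y (idx x)) ∂ρ ≠ ⊤ := by
    have hle : ∫⁻ x, G (y (idx x)) ∂ρ ≤ ∫⁻ _x, ENNReal.ofReal (M + M) ∂ρ := by
      apply lintegral_mono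
      intro x
      show G (y (idx x)) ≤ ENNReal.ofReal (M + M)
      rw [hGy]
      apply ENNReal.ofReal_le_ofReal
      linarith [hψM' (idx x)]
    rw [lintegral_const] at hle
    exact ne_top_of_le_ne_top
      (ENNReal.mul_ne_top ENNReal.ofReal_ne_top (measure_ne_top ρ Set.univ)) hle
  rw [heq] at hint
  exact (ENNReal.add_le_add_iff_right hfin).mp hint

/-- Two maps with finitely many values and equal cell masses: the squared Wasserstein
distance of the push-forwards is at most the weighted sum of squared site displacements. -/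
theorem W2sq_siteMap_le (ρ : Measure (Fin d → ℝ)) {n : ℕ}
    (y y' : Fin n → (Fin d → ℝ)) {idx idx' : (Fin d → ℝ) → Fin n}
    (hidx : Measurable idx) (hidx' : Measurable idx')
    (hmass : ∀ i, ρ (idx ⁻¹' {i}) = ρ (idx' ⁻¹' {i})) :
    W2sq (ρ.map (fun x => y (idx x))) (ρ.map (fun x => y' (idx' x)))
      ≤ ∑ i, ENNReal.ofReal (sqDist (y i) (y' i)) * ρ (idx ⁻¹' {i}) := by
  have hS := measurable_siteMap y hidx
  have hS' := measurable_siteMap y' hidx
  have hpair : Measurable (fun x => (y (idx x), y' (idx x))) := hS.prodMk hS'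
  have hfst : (ρ.map (fun x => (y (idx x), y' (idx x)))).map Prod.fst
      = ρ.map (fun x => y (idx x)) := by
    rw [Measure.map_map measurable_fst hpair]; rfl
  have hsnd : (ρ.map (fun x => (y (idx x), y' (idx x)))).map Prod.snd
      = ρ.map (fun x => y' (idx' x)) := by
    rw [Measure.map_map measurable_snd hpair]
    have : (Prod.snd ∘ fun x => (y (idx x), y' (idx x))) = fun x => y' (idx x) := rfl
    rw [this, map_siteMap ρ y' hidx, map_siteMap ρ y' hidx']
    refine Finset.sum_congr rfl fun i _ => ?_
    rw [hmass i]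
  unfold W2sq
  refine iInf_le_of_le ⟨ρ.map (fun x => (y (idx x), y' (idx x))), hfst, hsnd⟩ ?_
  simp only
  have hmeas : Measurable
      (fun p : (Fin d → ℝ) × (Fin d → ℝ) => ENNReal.ofReal (sqDist p.1 p.2)) := by
    unfold sqDist
    fun_prop
  rw [lintegral_map hmeas hpair]
  exact le_of_eq (lintegral_comp_idx ρ hidx (fun i => ENNReal.ofReal (sqDist (y i) (y' i))))

/-- Lower bound for the squared `L^2` distance of two maps which differ by at least `c`
(in squared distance) on a set `A`, under a uniform bound for the squared distance. -/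
theorem sq_L2dist_ge (ρ : Measure (Fin d → ℝ)) [IsFiniteMeasure ρ]
    (S T : (Fin d → ℝ) → (Fin d → ℝ)) {A : Set (Fin d → ℝ)} (hA : MeasurableSet A)
    {c B : ℝ} (hc : 0 ≤ c) (hAc : ∀ x ∈ A, c ≤ sqDist (S x) (T x))
    (hB : ∀ x, sqDist (S x) (T x) ≤ B) :
    c * (ρ A).toReal ≤ L2dist ρ S T ^ 2 := by
  have hfin : ∫⁻ x, ENNReal.ofReal (sqDist (S x) (T x)) ∂ρ ≠ ⊤ := by
    have hle : ∫⁻ x, ENNReal.ofReal (sqDist (S x) (T x)) ∂ρ ≤ ∫⁻ _x, ENNReal.ofReal B ∂ρ :=
      lintegral_mono fun x => ENNReal.ofReal_le_ofReal (hB x)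
    rw [lintegral_const] at hle
    exact ne_top_of_le_ne_top
      (ENNReal.mul_ne_top ENNReal.ofReal_ne_top (measure_ne_top ρ Set.univ)) hle
  have hlow : ENNReal.ofReal c * ρ A ≤ ∫⁻ x, ENNReal.ofReal (sqDist (S x) (T x)) ∂ρ := by
    rw [← lintegral_indicator_const hA]
    apply lintegral_mono
    intro x
    show A.indicator (fun _ => ENNReal.ofReal c) x ≤ ENNReal.ofReal (sqDist (S x) (T x))
    by_cases hx : x ∈ A
    · rw [Set.indicator_of_mem hx]
      exact ENNReal.ofReal_le_ofReal (hAc x hx)
    · rw [Set.indicator_of_notMem hx]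
      exact bot_le
  unfold L2dist
  rw [Real.sq_sqrt ENNReal.toReal_nonneg]
  have h := ENNReal.toReal_mono hfin hlow
  rwa [ENNReal.toReal_mul, ENNReal.toReal_ofReal hc] at h

/-- Upper bound for the Wasserstein distance from an upper bound for its square. -/
theorem W2_le_of_W2sq_le (μ ν : Measure (Fin d → ℝ)) {b : ℝ} (hb : 0 ≤ b)
    (h : W2sq μ ν ≤ ENNReal.ofReal b) : W2 μ ν ≤ Real.sqrt b := by
  unfold W2
  apply Real.sqrt_le_sqrt
  have h2 := ENNReal.toReal_mono ENNReal.ofReal_ne_top h
  rwa [ENNReal.toReal_ofReal hb] at h2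

end Vale.Agent.Helper27.P074Gen
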