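import Vale.Agent.Helper27.P074Box
import Vale.Agent.Helper27.P074Arith
import Vale.Agent.Helper27.P074Defs
import Vale.Agent.Helper15.P074W2

/-!
Assembly for P074: no exponent above one third is admissible, given optimality of the
two-valued maps cut out by a linear functional on the unit cube.
-/

namespace Vale.Agent.Helper27.P074Main

open MeasureTheory Vale.Agent.Helper27.P074Box Vale.Agent.Helper27.P074Defs

variable {d : ℕ}

theorem unif_cube : unif (cube d) = volume.restrict (cube d) := by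
  unfold unif
  rw [volume_cube]
  simp

instance : IsProbabilityMeasure (unif (cube d)) := by
  constructor
  rw [unif_cube, Measure.restrict_apply_univ, volume_cube]

theorem unif_cube_apply {A : Set (Fin d → ℝ)} (hA : MeasurableSet A) (hsub : A ⊆ cube d) :
    unif (cube d) A = volume A := by
  rw [unif_cube, Measure.restrict_apply hA, Set.inter_eq_left.mpr hsub]

theorem isCompact_cube : IsCompact (cube d) := isCompact_Icc

theorem convex_cube : Convex ℝ (cube d) := convex_Icc _ _

theorem zero_mem_cube : (0 : Fin d → ℝ) ∈ cube d :=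
  ⟨le_refl _, fun _ => zero_le_one⟩

theorem interior_cube_nonempty : (interior (cube d)).Nonempty := by
  have hsub : Set.pi Set.univ (fun _ : Fin d => Set.Ioo (0:ℝ) 1) ⊆ cube d := by
    intro x hx
    exact ⟨fun i => (hx i (Set.mem_univ i)).1.le, fun i => (hx i (Set.mem_univ i)).2.le⟩
  have hopen : IsOpen (Set.pi Set.univ (fun _ : Fin d => Set.Ioo (0:ℝ) 1)) :=
    isOpen_set_pi Set.finite_univ (fun _ _ => isOpen_Ioo)
  refine ⟨fun _ => 1 / 2, interior_maximal hsub hopen ?_⟩
  intro i _
  constructor <;> norm_num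

theorem single_mem_cube (i0 : Fin d) : (Pi.single i0 (1 : ℝ) : Fin d → ℝ) ∈ cube d := by
  constructor
  · intro i
    by_cases h : i = i0
    · subst h; simp
    · simp [Pi.single_eq_of_ne h]
  · intro i
    by_cases h : i = i0
    · subst h; simp
    · simp [Pi.single_eq_of_ne h]

theorem site_mem_cube (i0 i1 : Fin d) (hne : i0 ≠ i1) {t : ℝ} (ht0 : 0 ≤ t) (ht1 : t ≤ 1) :
    (Pi.single i0 (1 : ℝ) + t • Pi.single i1 (1 : ℝ) : Fin d → ℝ) ∈ cube d := by
  constructor
  · intro i
    by_cases h : i = i0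
    · subst h; simp [Pi.single_eq_of_ne hne]
    · by_cases h' : i = i1
      · subst h'; simp [Pi.single_eq_of_ne h, ht0]
      · simp [Pi.single_eq_of_ne h, Pi.single_eq_of_ne h']
  · intro i
    by_cases h : i = i0
    · subst h; simp [Pi.single_eq_of_ne hne]
    · by_cases h' : i = i1
      · subst h'; simp [Pi.single_eq_of_ne h, ht1]
      · simp [Pi.single_eq_of_ne h, Pi.single_eq_of_ne h']

theorem sqDist_single_zero (i0 : Fin d) :
    sqDist (Pi.single i0 (1 : ℝ) : Fin d → ℝ) 0 = 1 := by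
  unfold sqDist
  rw [Finset.sum_eq_single i0]
  · simp
  · intro b _ hb
    simp [Pi.single_eq_of_ne hb]
  · intro h; exact absurd (Finset.mem_univ _) h

/-- Lower bound for the squared `L^2` distance of two two-valued maps. -/
theorem sqL2_indicator_ge (K : Set (Fin d → ℝ)) {S Tr Low : Set (Fin d → ℝ)}
    (hLow : MeasurableSet Low) (hsub : Low ⊆ S) (hdisj : Disjoint Low Tr) (u v : Fin d → ℝ) :
    ENNReal.ofReal (sqDist u 0) * unif K Low
      ≤ sqL2 K (S.indicator fun _ => u) (Tr.indicator fun _ => v) := by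
  unfold sqL2
  rw [← lintegral_indicator_const hLow]
  apply lintegral_mono
  intro x
  by_cases hx : x ∈ Low
  · have hxS : x ∈ S := hsub hx
    have hxT : x ∉ Tr := Set.disjoint_left.mp hdisj hx
    simp [Set.indicator_of_mem hx, Set.indicator_of_mem hxS, Set.indicator_of_notMem hxT]
  · simp [Set.indicator_of_notMem hx]

theorem W2sq_eq (μ ν : Measure (Fin d → ℝ)) :
    W2sq μ ν = Vale.Agent.Helper15.P074W2.W2sq μ ν := rfl

/-- The form of the optimality statement used by the assembly: on the unit cube, the map equal to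
`w` on a superlevel set of `x ↦ ∑ i, x i * w i` and `0` elsewhere is an optimal map onto its
push-forward. -/
def CubeOptimality (d : ℕ) : Prop :=
  ∀ (w : Fin d → ℝ) (τ : ℝ), w ≠ 0 →
    IsOptMap (cube d)
      ((unif (cube d)).map ({x | x ∈ cube d ∧ τ < ∑ i, x i * w i}.indicator fun _ => w))
      ({x | x ∈ cube d ∧ τ < ∑ i, x i * w i}.indicator fun _ => w)

theorem strip_eq (i0 : Fin d) (a : ℝ) :
    strip i0 a = {x | x ∈ cube d ∧ 1 - a < ∑ i, x i * (Pi.single i0 (1 : ℝ) : Fin d → ℝ) i} := by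
  ext x
  have : ∑ i, x i * (Pi.single i0 (1 : ℝ) : Fin d → ℝ) i = x i0 := by
    rw [Finset.sum_eq_single i0]
    · simp
    · intro b _ hb; simp [Pi.single_eq_of_ne hb]
    · intro h; exact absurd (Finset.mem_univ _) h
  simp only [strip, Set.mem_ofPred_eq, this]

theorem corner_eq (i0 i1 : Fin d) (t : ℝ) :
    corner i0 i1 t = {x | x ∈ cube d ∧ 1 + t / 2 <
      ∑ i, x i * (Pi.single i0 (1 : ℝ) + t • Pi.single i1 (1 : ℝ) : Fin d → ℝ) i} := by
  ext x
  have h0 : ∑ i, x i * (Pi.single i0 (1 : ℝ) : Fin d → ℝ) i = x i0 := by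
    rw [Finset.sum_eq_single i0]
    · simp
    · intro b _ hb; simp [Pi.single_eq_of_ne hb]
    · intro h; exact absurd (Finset.mem_univ _) h
  have h1 : ∑ i, x i * (t * (Pi.single i1 (1 : ℝ) : Fin d → ℝ) i) = t * x i1 := by
    rw [Finset.sum_eq_single i1]
    · simp; ring
    · intro b _ hb; simp [Pi.single_eq_of_ne hb]
    · intro h; exact absurd (Finset.mem_univ _) h
  have : ∑ i, x i * (Pi.single i0 (1 : ℝ) + t • Pi.single i1 (1 : ℝ) : Fin d → ℝ) i
      = x i0 + t * x i1 := by
    simp only [Pi.add_apply, Pi.smul_apply, smul_eq_mul, mul_add, Finset.sum_add_distrib, h0, h1]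
  simp only [corner, Set.mem_ofPred_eq, this]

/-- Given the optimality statement on the cube, no exponent above `1/3` is admissible. -/
theorem not_admissible_of_opt (hd : 2 ≤ d) (hopt : CubeOptimality d) {α : ℝ}
    (hα : 1 / 3 < α) : ¬ Admissible d α := by
  intro hA
  obtain ⟨C, hC⟩ := hA (cube d) isCompact_cube convex_cube interior_cube_nonempty (cube d)
    isCompact_cube ⟨0, zero_mem_cube⟩
  obtain ⟨t, ht0, ht1, harith⟩ := Vale.Agent.Helper27.P074Arith.exists_small_t' hα C
  obtain ⟨i0, i1, hne⟩ : ∃ i0 i1 : Fin d, i0 ≠ i1 :=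
    ⟨⟨0, by omega⟩, ⟨1, by omega⟩, by simp [Fin.ext_iff]⟩
  obtain ⟨a, ha1, ha2, hcorner, hstrip, hlow⟩ := exists_width i0 i1 hne ht0 ht1
  have ha0 : 0 < a := by
    have : 0 < t / 16 := by positivity
    linarith
  have hS : MeasurableSet (strip i0 a) := measurableSet_strip i0 a
  have hTr : MeasurableSet (corner i0 i1 t) := measurableSet_corner i0 i1 t
  have hLow : MeasurableSet (stripLow i0 i1 a) := measurableSet_stripLow i0 i1 a
  have hu0 : (Pi.single i0 (1 : ℝ) : Fin d → ℝ) ≠ 0 := by
    intro h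
    have := congrFun h i0
    simp at this
  have hv0 : (Pi.single i0 (1 : ℝ) + t • Pi.single i1 (1 : ℝ) : Fin d → ℝ) ≠ 0 := by
    intro h
    have := congrFun h i0
    simp [Pi.single_eq_of_ne hne] at this
  have hTμ : Measurable ((strip i0 a).indicator fun _ => (Pi.single i0 (1 : ℝ) : Fin d → ℝ)) :=
    measurable_const.indicator hS
  have hTν : Measurable ((corner i0 i1 t).indicator
      fun _ => (Pi.single i0 (1 : ℝ) + t • Pi.single i1 (1 : ℝ) : Fin d → ℝ)) :=
    measurable_const.indicator hTr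
  -- optimality of the two maps
  have hμopt := hopt (Pi.single i0 (1 : ℝ)) (1 - a) hu0
  rw [← strip_eq i0 a] at hμopt
  have hνopt := hopt (Pi.single i0 (1 : ℝ) + t • Pi.single i1 (1 : ℝ)) (1 + t / 2) hv0
  rw [← corner_eq i0 i1 t] at hνopt
  -- the targets are probability measures supported in the cube
  have hμprob : IsProbabilityMeasure ((unif (cube d)).map
      ((strip i0 a).indicator fun _ => (Pi.single i0 (1 : ℝ) : Fin d → ℝ))) :=
    Measure.isProbabilityMeasure_map hTμ.aemeasurable
  have hνprob : IsProbabilityMeasure ((unif (cube d)).map ((corner i0 i1 t).indicator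
      fun _ => (Pi.single i0 (1 : ℝ) + t • Pi.single i1 (1 : ℝ) : Fin d → ℝ))) :=
    Measure.isProbabilityMeasure_map hTν.aemeasurable
  have hμY : (unif (cube d)).map
      ((strip i0 a).indicator fun _ => (Pi.single i0 (1 : ℝ) : Fin d → ℝ)) (cube d) = 1 := by
    rw [Measure.map_apply hTμ measurableSet_cube]
    have : ((strip i0 a).indicator fun _ => (Pi.single i0 (1 : ℝ) : Fin d → ℝ)) ⁻¹' (cube d)
        = Set.univ := by
      ext x
      simp only [Set.mem_preimage, Set.mem_univ, iff_true]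
      by_cases hx : x ∈ strip i0 a
      · rw [Set.indicator_of_mem hx]; exact single_mem_cube i0
      · rw [Set.indicator_of_notMem hx]; exact zero_mem_cube
    rw [this, measure_univ]
  have hνY : (unif (cube d)).map ((corner i0 i1 t).indicator
      fun _ => (Pi.single i0 (1 : ℝ) + t • Pi.single i1 (1 : ℝ) : Fin d → ℝ)) (cube d) = 1 := by
    rw [Measure.map_apply hTν measurableSet_cube]
    have : ((corner i0 i1 t).indicator
        fun _ => (Pi.single i0 (1 : ℝ) + t • Pi.single i1 (1 : ℝ) : Fin d → ℝ)) ⁻¹' (cube d)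
        = Set.univ := by
      ext x
      simp only [Set.mem_preimage, Set.mem_univ, iff_true]
      by_cases hx : x ∈ corner i0 i1 t
      · rw [Set.indicator_of_mem hx]; exact site_mem_cube i0 i1 hne ht0.le ht1
      · rw [Set.indicator_of_notMem hx]; exact zero_mem_cube
    rw [this, measure_univ]
  have key := hC _ _ hμprob hνprob hμY hνY _ _ hμopt hνopt
  -- measures of the three sets under the uniform measure
  have hρS : unif (cube d) (strip i0 a) = ENNReal.ofReal a := by
    rw [unif_cube_apply hS (strip_subset_cube i0 a), hstrip]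
  have hρTr : unif (cube d) (corner i0 i1 t) = ENNReal.ofReal a := by
    rw [unif_cube_apply hTr (corner_subset_cube i0 i1 t), hcorner]
  have hρLow : unif (cube d) (stripLow i0 i1 a) = ENNReal.ofReal (a / 2) := by
    rw [unif_cube_apply hLow (fun x hx => hx.1), hlow]
  -- lower bound for the distance of the maps
  have hL : ENNReal.ofReal (a / 2) ≤ sqL2 (cube d)
      ((strip i0 a).indicator fun _ => (Pi.single i0 (1 : ℝ) : Fin d → ℝ))
      ((corner i0 i1 t).indicator
        fun _ => (Pi.single i0 (1 : ℝ) + t • Pi.single i1 (1 : ℝ) : Fin d → ℝ)) := by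
    have := sqL2_indicator_ge (cube d) hLow (stripLow_subset_strip i0 i1 a)
      (stripLow_disjoint_corner i0 i1 ht0 a) (Pi.single i0 (1 : ℝ))
      (Pi.single i0 (1 : ℝ) + t • Pi.single i1 (1 : ℝ))
    rw [sqDist_single_zero, hρLow] at this
    simpa using this
  -- upper bound for the transport distance of the targets
  have hW : W2sq ((unif (cube d)).map
      ((strip i0 a).indicator fun _ => (Pi.single i0 (1 : ℝ) : Fin d → ℝ)))
      ((unif (cube d)).map ((corner i0 i1 t).indicator
        fun _ => (Pi.single i0 (1 : ℝ) + t • Pi.single i1 (1 : ℝ) : Fin d → ℝ)))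
      ≤ ENNReal.ofReal (a * t ^ 2) := by
    rw [W2sq_eq]
    have := Vale.Agent.Helper15.P074W2.W2sq_example_le (unif (cube d)) hS hTr
      (hρS.trans hρTr.symm) i0 i1 t
    rw [hρS, ← ENNReal.ofReal_mul (by positivity)] at this
    rw [mul_comm a]
    exact this
  -- combine
  have hb0 : 0 < a * t ^ 2 := by positivity
  have h1 : (ENNReal.ofReal (a / 2)) ^ (1 / 2 : ℝ)
      ≤ ENNReal.ofReal C * ((ENNReal.ofReal (a * t ^ 2)) ^ (1 / 2 : ℝ)) ^ α := by
    refine le_trans (ENNReal.rpow_le_rpow hL (by norm_num)) (le_trans key ?_)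
    gcongr
  rw [ENNReal.ofReal_rpow_of_nonneg (by positivity) (by norm_num),
    ENNReal.ofReal_rpow_of_nonneg hb0.le (by norm_num),
    ENNReal.ofReal_rpow_of_nonneg (by positivity) (by linarith),
    ← ENNReal.ofReal_mul' (by positivity)] at h1
  have hpos : 0 < (a / 2) ^ (1 / 2 : ℝ) := Real.rpow_pos_of_pos (by positivity) _
  have h2 : (a / 2) ^ (1 / 2 : ℝ) ≤ C * ((a * t ^ 2) ^ (1 / 2 : ℝ)) ^ α := by
    rcases (ENNReal.ofReal_le_ofReal_iff' ).mp h1 with h | h
    · exact h
    · exact absurd h (not_le.mpr hpos)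
  have h3 : ((a / 2) ^ (1 / 2 : ℝ)) ^ 2 ≤ (C * ((a * t ^ 2) ^ (1 / 2 : ℝ)) ^ α) ^ 2 :=
    pow_le_pow_left₀ hpos.le h2 2
  have e1 : ((a / 2) ^ (1 / 2 : ℝ)) ^ 2 = a / 2 := by
    rw [← Real.rpow_natCast, ← Real.rpow_mul (by positivity)]
    norm_num
  have e2 : (C * ((a * t ^ 2) ^ (1 / 2 : ℝ)) ^ α) ^ 2 = C ^ 2 * (a * t ^ 2) ^ α := by
    rw [mul_pow]
    congr 1
    rw [← Real.rpow_mul hb0.le, ← Real.rpow_natCast, ← Real.rpow_mul hb0.le]
    congr 1
    push_cast
    ring
  rw [e1, e2] at h3
  exact absurd (harith a ha1 ha2) (not_lt.mpr h3)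

end Vale.Agent.Helper27.P074Main
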