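import Vale.Agent.Helper27.P074Main

/-!
Optimality of two-valued maps cut out by a linear functional (bathtub principle), for P074.
-/

namespace Vale.Agent.Helper27.P074Opt

open MeasureTheory Vale.Agent.Helper27.P074Box Vale.Agent.Helper27.P074Defs
  Vale.Agent.Helper27.P074Main

variable {d : ℕ}

/-- Pointwise expansion of the squared distance to a two-valued map. -/
theorem sqDist_indicator (A : Set (Fin d → ℝ)) (w x : Fin d → ℝ) :
    sqDist x (A.indicator (fun _ => w) x)
      = sqDist x 0 + A.indicator (fun y => (∑ i, w i ^ 2) - 2 * ∑ i, y i * w i) x := by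
  by_cases hx : x ∈ A
  · rw [Set.indicator_of_mem hx, Set.indicator_of_mem hx]
    unfold sqDist
    simp only [Pi.zero_apply, sub_zero]
    rw [Finset.mul_sum, ← Finset.sum_sub_distrib, ← Finset.sum_add_distrib]
    refine Finset.sum_congr rfl (fun i _ => ?_)
    ring
  · rw [Set.indicator_of_notMem hx, Set.indicator_of_notMem hx, add_zero]

theorem sqDist_nonneg (x y : Fin d → ℝ) : 0 ≤ sqDist x y :=
  Finset.sum_nonneg (fun _ _ => sq_nonneg _)

/-- Bathtub principle: among sets of the same measure, a superlevel set maximises the integral. -/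
theorem bathtub {Ω : Type*} [MeasurableSpace Ω] (ρ : Measure Ω) [IsFiniteMeasure ρ]
    (l : Ω → ℝ) (hl : Integrable l ρ) (τ : ℝ) {S A : Set Ω} (hS : MeasurableSet S)
    (hA : MeasurableSet A) (hSge : ∀ x ∈ S, τ ≤ l x) (hSle : ∀ᵐ x ∂ρ, x ∉ S → l x ≤ τ)
    (hAS : ρ A = ρ S) :
    ∫ x in A, l x ∂ρ ≤ ∫ x in S, l x ∂ρ := by
  have h1 : ∫ x in A ∩ S, l x ∂ρ + ∫ x in A \ S, l x ∂ρ = ∫ x in A, l x ∂ρ :=
    integral_inter_add_sdiff hS hl.integrableOn
  have h2 : ∫ x in S ∩ A, l x ∂ρ + ∫ x in S \ A, l x ∂ρ = ∫ x in S, l x ∂ρ :=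
    integral_inter_add_sdiff hA hl.integrableOn
  have hmeas : ρ (A \ S) = ρ (S \ A) := by
    have e1 := measure_inter_add_sdiff (μ := ρ) A hS
    have e2 := measure_inter_add_sdiff (μ := ρ) S hA
    rw [Set.inter_comm] at e2
    have : ρ (A ∩ S) + ρ (A \ S) = ρ (A ∩ S) + ρ (S \ A) := by rw [e1, e2, hAS]
    exact (ENNReal.add_right_inj (measure_ne_top ρ _)).mp this
  have h3 : ∫ x in A \ S, l x ∂ρ ≤ τ * (ρ (A \ S)).toReal := by
    have hle : ∫ x in A \ S, l x ∂ρ ≤ ∫ _ in A \ S, τ ∂ρ := by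
      apply setIntegral_mono_ae_restrict hl.integrableOn (integrable_const τ).integrableOn
      exact (ae_restrict_iff' (hA.diff hS)).mpr (hSle.mono (fun x hx hxAS => hx hxAS.2))
    rw [setIntegral_const] at hle
    simpa [Measure.real, mul_comm] using hle
  have h4 : τ * (ρ (S \ A)).toReal ≤ ∫ x in S \ A, l x ∂ρ := by
    have hle : ∫ _ in S \ A, τ ∂ρ ≤ ∫ x in S \ A, l x ∂ρ := by
      apply setIntegral_mono_on (integrable_const τ).integrableOn hl.integrableOn (hS.diff hA)
      intro x hx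
      exact hSge x hx.1
    rw [setIntegral_const] at hle
    simpa [Measure.real, mul_comm] using hle
  rw [hmeas] at h3
  rw [Set.inter_comm S A] at h2
  linarith

/-- The cost of the two-valued map `w 1_A`. -/
theorem cost_indicator (ρ : Measure (Fin d → ℝ)) [IsFiniteMeasure ρ] (w : Fin d → ℝ)
    (hg : Integrable (fun x : Fin d → ℝ => sqDist x 0) ρ)
    (hl : Integrable (fun x : Fin d → ℝ => ∑ i, x i * w i) ρ)
    {A : Set (Fin d → ℝ)} (hA : MeasurableSet A) :
    ∫⁻ x, ENNReal.ofReal (sqDist x (A.indicator (fun _ => w) x)) ∂ρ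
      = ENNReal.ofReal (∫ x, sqDist x 0 ∂ρ + (∑ i, w i ^ 2) * (ρ A).toReal
          - 2 * ∫ x in A, (∑ i, x i * w i) ∂ρ) := by
  have hk : Integrable (fun y : Fin d → ℝ => (∑ i, w i ^ 2) - 2 * ∑ i, y i * w i) ρ :=
    (integrable_const _).sub (hl.const_mul 2)
  have hkA : Integrable (A.indicator (fun y : Fin d → ℝ => (∑ i, w i ^ 2) - 2 * ∑ i, y i * w i)) ρ :=
    hk.indicator hA
  have hfun : (fun x : Fin d → ℝ => sqDist x (A.indicator (fun _ => w) x))
      = fun x => sqDist x 0
        + A.indicator (fun y => (∑ i, w i ^ 2) - 2 * ∑ i, y i * w i) x := by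
    funext x; exact sqDist_indicator A w x
  have hint : Integrable (fun x : Fin d → ℝ => sqDist x (A.indicator (fun _ => w) x)) ρ := by
    rw [hfun]; exact hg.add hkA
  rw [← ofReal_integral_eq_lintegral_ofReal hint
    (Filter.Eventually.of_forall (fun x => sqDist_nonneg _ _))]
  congr 1
  rw [hfun, integral_add hg hkA, integral_indicator hA,
    integral_sub (integrable_const _).integrableOn (hl.const_mul 2).integrableOn,
    setIntegral_const, integral_const_mul]
  simp [Measure.real, mul_comm]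
  ring

/-- Optimality of the two-valued map `w 1_S` for a superlevel set `S` of `x ↦ ∑ i, x i * w i`. -/
theorem opt_indicator (ρ : Measure (Fin d → ℝ)) [IsFiniteMeasure ρ] (w : Fin d → ℝ) (hw : w ≠ 0)
    (τ : ℝ) {S : Set (Fin d → ℝ)} (hS : MeasurableSet S)
    (hSge : ∀ x ∈ S, τ ≤ ∑ i, x i * w i) (hSle : ∀ᵐ x ∂ρ, x ∉ S → ∑ i, x i * w i ≤ τ)
    (hg : Integrable (fun x : Fin d → ℝ => sqDist x 0) ρ)
    (hl : Integrable (fun x : Fin d → ℝ => ∑ i, x i * w i) ρ)
    (T' : (Fin d → ℝ) → (Fin d → ℝ)) (hT' : Measurable T')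
    (hmap : ρ.map T' = ρ.map (S.indicator fun _ => w)) :
    ∫⁻ x, ENNReal.ofReal (sqDist x (S.indicator (fun _ => w) x)) ∂ρ
      ≤ ∫⁻ x, ENNReal.ofReal (sqDist x (T' x)) ∂ρ := by
  have hT0 : Measurable (S.indicator fun _ => w) := measurable_const.indicator hS
  have hAm : MeasurableSet (T' ⁻¹' {w}) := hT' (measurableSet_singleton w)
  have hpre : (S.indicator fun _ => w) ⁻¹' {w} = S := by
    ext x
    by_cases hx : x ∈ S
    · simp [hx]
    · simp [hx, hw.symm]
  have hAS : ρ (T' ⁻¹' {w}) = ρ S := by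
    have := congrArg (fun m : Measure (Fin d → ℝ) => m {w}) hmap
    simp only [Measure.map_apply hT' (measurableSet_singleton w),
      Measure.map_apply hT0 (measurableSet_singleton w), hpre] at this
    exact this
  have hpair : MeasurableSet ({0, w} : Set (Fin d → ℝ))ᶜ :=
    ((measurableSet_singleton w).insert 0).compl
  have hnull : ρ (T' ⁻¹' ({0, w} : Set (Fin d → ℝ))ᶜ) = 0 := by
    have := congrArg (fun m : Measure (Fin d → ℝ) => m ({0, w} : Set (Fin d → ℝ))ᶜ) hmap
    simp only [Measure.map_apply hT' hpair, Measure.map_apply hT0 hpair] at this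
    rw [this]
    have hemp : (S.indicator fun _ => w) ⁻¹' ({0, w} : Set (Fin d → ℝ))ᶜ = ∅ := by
      ext x
      by_cases hx : x ∈ S
      · simp [Set.indicator_of_mem hx]
      · simp [Set.indicator_of_notMem hx]
    rw [hemp, measure_empty]
  have hae : ∀ᵐ x ∂ρ, T' x = (T' ⁻¹' {w}).indicator (fun _ => w) x := by
    have : ∀ᵐ x ∂ρ, x ∉ T' ⁻¹' ({0, w} : Set (Fin d → ℝ))ᶜ := measure_eq_zero_iff_ae_notMem.mp hnull
    filter_upwards [this] with x hx
    simp only [Set.mem_preimage, Set.mem_compl_iff, not_not, Set.mem_insert_iff,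
      Set.mem_singleton_iff] at hx
    by_cases hxw : T' x = w
    · rw [Set.indicator_of_mem (by simpa using hxw)]; exact hxw
    · rw [Set.indicator_of_notMem (by simpa using hxw)]
      rcases hx with h | h
      · exact h
      · exact absurd h hxw
  have hcost : ∫⁻ x, ENNReal.ofReal (sqDist x (T' x)) ∂ρ
      = ∫⁻ x, ENNReal.ofReal (sqDist x ((T' ⁻¹' {w}).indicator (fun _ => w) x)) ∂ρ := by
    apply lintegral_congr_ae
    filter_upwards [hae] with x hx
    rw [← hx]
  rw [hcost, cost_indicator ρ w hg hl hS, cost_indicator ρ w hg hl hAm, hAS]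
  apply ENNReal.ofReal_le_ofReal
  have := bathtub ρ (fun x : Fin d → ℝ => ∑ i, x i * w i) hl τ hS hAm hSge hSle hAS
  linarith

/-- The optimality statement on the unit cube. -/
theorem cubeOptimality (d : ℕ) : CubeOptimality d := by
  intro w τ hw
  have hSm : MeasurableSet {x : Fin d → ℝ | x ∈ cube d ∧ τ < ∑ i, x i * w i} := by
    have : {x : Fin d → ℝ | x ∈ cube d ∧ τ < ∑ i, x i * w i}
        = cube d ∩ (fun x : Fin d → ℝ => ∑ i, x i * w i) ⁻¹' Set.Ioi τ := by
      ext x; rfl
    rw [this]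
    have hm : Measurable (fun x : Fin d → ℝ => ∑ i, x i * w i) := by fun_prop
    exact measurableSet_cube.inter (hm measurableSet_Ioi)
  refine ⟨measurable_const.indicator hSm, rfl, ?_⟩
  intro T' hT' hmap
  have hg : Integrable (fun x : Fin d → ℝ => sqDist x 0) (unif (cube d)) := by
    rw [unif_cube]
    have hc : Continuous (fun x : Fin d → ℝ => sqDist x 0) := by
      unfold sqDist; fun_prop
    exact hc.continuousOn.integrableOn_compact isCompact_cube
  have hl : Integrable (fun x : Fin d → ℝ => ∑ i, x i * w i) (unif (cube d)) := by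
    rw [unif_cube]
    have hc : Continuous (fun x : Fin d → ℝ => ∑ i, x i * w i) := by fun_prop
    exact hc.continuousOn.integrableOn_compact isCompact_cube
  have hSle : ∀ᵐ x ∂(unif (cube d)),
      x ∉ {x : Fin d → ℝ | x ∈ cube d ∧ τ < ∑ i, x i * w i} → ∑ i, x i * w i ≤ τ := by
    rw [unif_cube]
    filter_upwards [ae_restrict_mem measurableSet_cube] with x hx hxS
    by_contra hcon
    exact hxS ⟨hx, not_le.mp hcon⟩
  exact opt_indicator (unif (cube d)) w hw τ hSm (fun x hx => hx.2.le) hSle hg hl T' hT' hmap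

/-- No exponent above `1/3` is admissible in any dimension `d ≥ 2`. -/
theorem not_admissible (hd : 2 ≤ d) {α : ℝ} (hα : 1 / 3 < α) :
    ¬ Admissible d α :=
  not_admissible_of_opt hd (cubeOptimality d) hα

end Vale.Agent.Helper27.P074Opt
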