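import Vale.Agent.Helper27.P074Gen

/-!
# Three-site configurations: a strip cell versus a wedge cell

Sites `-e, 0, e` (with `e` the unit vector of the coordinate `i0`) and power cells
`{x i0 < b0}`, `{b0 ≤ x i0 < b1}`, `{b1 ≤ x i0}`; and sites `-e, t e', e` (with `e'` the unit
vector of another coordinate `i1`) whose middle power cell is the wedge
`{|x i0 - p| ≤ t (x i1 - h)}`, the other two cells being the parts of its complement with
`x i0 < p` and with `p ≤ x i0`.
Both maps are optimal onto their push-forwards for every finite source measure; if the three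
cells have the same masses in both configurations, the squared Wasserstein distance of the
push-forwards is at most `t ^ 2` times the mass of the middle cell, while the maps differ by
distance one at every point of the strip outside the wedge.
-/

namespace Vale.Agent.Helper27.P074Three

open MeasureTheory
open Vale.Agent.Helper16.OT
open Vale.Agent.Helper27.P074Gen

variable {d : ℕ}

theorem sqDist_single (x : Fin d → ℝ) (i : Fin d) (c : ℝ) :
    sqDist x (Pi.single i c) = sqDist x 0 - 2 * c * x i + c ^ 2 := by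
  classical
  unfold sqDist
  have h : ∀ j, (x j - (Pi.single i c : Fin d → ℝ) j) ^ 2
      = (x j - (0 : Fin d → ℝ) j) ^ 2 + (if j = i then (- 2 * c * x i + c ^ 2) else 0) := by
    intro j
    by_cases hj : j = i
    · subst hj
      simp only [Pi.single_eq_same, Pi.zero_apply, if_true]
      ring
    · simp [hj]
  simp_rw [h]
  rw [Finset.sum_add_distrib, Finset.sum_ite_eq' Finset.univ i]
  simp only [Finset.mem_univ, if_true]
  ring

/-- The sites `-e, 0, e`. -/
def sitesA (i0 : Fin d) : Fin 3 → (Fin d → ℝ) :=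
  ![Pi.single i0 (-1), 0, Pi.single i0 1]

/-- The sites `-e, t e', e`. -/
def sitesB (i0 i1 : Fin d) (t : ℝ) : Fin 3 → (Fin d → ℝ) :=
  ![Pi.single i0 (-1), Pi.single i1 t, Pi.single i0 1]

/-- Index of the strip cells. -/
noncomputable def idxStrip (i0 : Fin d) (b0 b1 : ℝ) (x : Fin d → ℝ) : Fin 3 :=
  if x i0 < b0 then 0 else if x i0 < b1 then 1 else 2

/-- Index of the wedge cells. -/
noncomputable def idxWedge (i0 i1 : Fin d) (p h t : ℝ) (x : Fin d → ℝ) : Fin 3 :=
  if |x i0 - p| ≤ t * (x i1 - h) then 1 else if x i0 < p then 0 else 2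

/-- The map with strip cells. -/
noncomputable def stripMap (i0 : Fin d) (b0 b1 : ℝ) : (Fin d → ℝ) → (Fin d → ℝ) :=
  fun x => sitesA i0 (idxStrip i0 b0 b1 x)

/-- The map with a wedge cell. -/
noncomputable def wedgeMap (i0 i1 : Fin d) (p h t : ℝ) : (Fin d → ℝ) → (Fin d → ℝ) :=
  fun x => sitesB i0 i1 t (idxWedge i0 i1 p h t x)

theorem measurable_idxStrip (i0 : Fin d) (b0 b1 : ℝ) : Measurable (idxStrip i0 b0 b1) := by
  unfold idxStrip
  refine Measurable.ite (measurableSet_lt (measurable_pi_apply i0) measurable_const)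
    measurable_const ?_
  exact Measurable.ite (measurableSet_lt (measurable_pi_apply i0) measurable_const)
    measurable_const measurable_const

theorem measurable_idxWedge (i0 i1 : Fin d) (p h t : ℝ) :
    Measurable (idxWedge i0 i1 p h t) := by
  unfold idxWedge
  have h1 : Measurable fun x : Fin d → ℝ => |x i0 - p| := by fun_prop
  have h2 : Measurable fun x : Fin d → ℝ => t * (x i1 - h) := by fun_prop
  refine Measurable.ite (measurableSet_le h1 h2) measurable_const ?_
  exact Measurable.ite (measurableSet_lt (measurable_pi_apply i0) measurable_const)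
    measurable_const measurable_const

theorem sitesA_injective (i0 : Fin d) : Function.Injective (sitesA i0) := by
  intro a b hab
  have h := congrFun hab i0
  fin_cases a <;> fin_cases b <;> simp [sitesA] at h ⊢ <;> norm_num at h

theorem sitesB_injective {i0 i1 : Fin d} (h01 : i0 ≠ i1) (t : ℝ) :
    Function.Injective (sitesB i0 i1 t) := by
  intro a b hab
  have h := congrFun hab i0
  fin_cases a <;> fin_cases b <;>
    simp [sitesB, Pi.single_eq_of_ne h01] at h ⊢ <;> norm_num at h

/-- The strip map is an optimal map onto its push-forward. -/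
theorem isOptMap_stripMap (ρ : Measure (Fin d → ℝ)) [IsFiniteMeasure ρ] (i0 : Fin d)
    {b0 b1 : ℝ} (hb : b0 ≤ b1) :
    IsOptMap ρ (ρ.map (stripMap i0 b0 b1)) (stripMap i0 b0 b1) := by
  refine isOptMap_of_potential ρ (sitesA i0) (sitesA_injective i0)
    ![2 * b0 + 1, 0, 1 - 2 * b1] (measurable_idxStrip i0 b0 b1) ?_
  intro x j
  have e0 : sqDist x (Pi.single i0 (-1)) = sqDist x 0 + 2 * x i0 + 1 := by
    rw [sqDist_single]; ring
  have e2 : sqDist x (Pi.single i0 1) = sqDist x 0 - 2 * x i0 + 1 := by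
    rw [sqDist_single]; ring
  unfold idxStrip
  by_cases h1 : x i0 < b0
  · rw [if_pos h1]
    fin_cases j <;> simp [sitesA, e0, e2] <;> linarith
  · rw [if_neg h1]
    by_cases h2 : x i0 < b1
    · rw [if_pos h2]
      fin_cases j <;> simp [sitesA, e0, e2] <;> linarith
    · rw [if_neg h2]
      fin_cases j <;> simp [sitesA, e0, e2] <;> linarith

/-- The wedge map is an optimal map onto its push-forward. -/
theorem isOptMap_wedgeMap (ρ : Measure (Fin d → ℝ)) [IsFiniteMeasure ρ] {i0 i1 : Fin d}
    (h01 : i0 ≠ i1) (p h t : ℝ) :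
    IsOptMap ρ (ρ.map (wedgeMap i0 i1 p h t)) (wedgeMap i0 i1 p h t) := by
  refine isOptMap_of_potential ρ (sitesB i0 i1 t) (sitesB_injective h01 t)
    ![2 * p + 2 * t * h + 1 - t ^ 2, 0, 1 - t ^ 2 - 2 * p + 2 * t * h]
    (measurable_idxWedge i0 i1 p h t) ?_
  intro x j
  have e0 : sqDist x (Pi.single i0 (-1)) = sqDist x 0 + 2 * x i0 + 1 := by
    rw [sqDist_single]; ring
  have e1 : sqDist x (Pi.single i1 t) = sqDist x 0 - 2 * t * x i1 + t ^ 2 := by
    rw [sqDist_single]
  have e2 : sqDist x (Pi.single i0 1) = sqDist x 0 - 2 * x i0 + 1 := by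
    rw [sqDist_single]; ring
  unfold idxWedge
  by_cases h1 : |x i0 - p| ≤ t * (x i1 - h)
  · rw [if_pos h1]
    obtain ⟨ha, hb⟩ := abs_le.mp h1
    fin_cases j <;> simp [sitesB, e0, e1, e2] <;> nlinarith
  · rw [if_neg h1]
    have h1' : t * (x i1 - h) < x i0 - p ∨ t * (x i1 - h) < -(x i0 - p) :=
      lt_abs.mp (not_le.mp h1)
    by_cases h2 : x i0 < p
    · rw [if_pos h2]
      have h3 : t * (x i1 - h) < -(x i0 - p) := by
        rcases h1' with h' | h'
        · linarith
        · exact h'
      fin_cases j <;> simp [sitesB, e0, e1, e2] <;> nlinarith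
    · rw [if_neg h2]
      have h3 : t * (x i1 - h) < x i0 - p := by
        rcases h1' with h' | h'
        · exact h'
        · have : 0 ≤ x i0 - p := by linarith
          linarith
      fin_cases j <;> simp [sitesB, e0, e1, e2] <;> nlinarith

/-- Wasserstein bound: if the three cells have equal masses in the two configurations, the
squared Wasserstein distance of the push-forwards is at most `t ^ 2` times the mass of the
strip. -/
theorem W2sq_strip_wedge_le (ρ : Measure (Fin d → ℝ)) (i0 i1 : Fin d)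
    (b0 b1 p h t : ℝ)
    (hmass : ∀ i, ρ (idxStrip i0 b0 b1 ⁻¹' {i}) = ρ (idxWedge i0 i1 p h t ⁻¹' {i})) :
    W2sq (ρ.map (stripMap i0 b0 b1)) (ρ.map (wedgeMap i0 i1 p h t))
      ≤ ENNReal.ofReal (t ^ 2) * ρ (idxStrip i0 b0 b1 ⁻¹' {1}) := by
  have hle := W2sq_siteMap_le ρ (sitesA i0) (sitesB i0 i1 t)
    (measurable_idxStrip i0 b0 b1) (measurable_idxWedge i0 i1 p h t) hmass
  refine hle.trans (le_of_eq ?_)
  have s0 : sqDist (sitesA i0 0) (sitesB i0 i1 t 0) = 0 := by
    simp [sitesA, sitesB, sqDist]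
  have s1 : sqDist (sitesA i0 1) (sitesB i0 i1 t 1) = t ^ 2 := by
    have : sqDist (0 : Fin d → ℝ) (Pi.single i1 t) = t ^ 2 := by
      rw [sqDist_single]
      simp [sqDist]
    simpa [sitesA, sitesB] using this
  have s2 : sqDist (sitesA i0 2) (sitesB i0 i1 t 2) = 0 := by
    simp [sitesA, sitesB, sqDist]
  rw [Fin.sum_univ_three, s0, s1, s2]
  simp

/-- At every point of the strip outside the wedge the two maps are at distance one. -/
theorem sqDist_strip_wedge (i0 i1 : Fin d) (b0 b1 p h t : ℝ)
    (x : Fin d → ℝ) (hx1 : b0 ≤ x i0) (hx2 : x i0 < b1)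
    (hx3 : ¬ |x i0 - p| ≤ t * (x i1 - h)) :
    sqDist (stripMap i0 b0 b1 x) (wedgeMap i0 i1 p h t x) = 1 := by
  have hs : idxStrip i0 b0 b1 x = 1 := by
    unfold idxStrip
    rw [if_neg (not_lt.mpr hx1), if_pos hx2]
  have e0 : sqDist (0 : Fin d → ℝ) (Pi.single i0 (-1)) = 1 := by
    rw [sqDist_single]; simp [sqDist]
  have e2 : sqDist (0 : Fin d → ℝ) (Pi.single i0 1) = 1 := by
    rw [sqDist_single]; simp [sqDist]
  unfold stripMap wedgeMap
  rw [hs]
  unfold idxWedge
  rw [if_neg hx3]
  by_cases h2 : x i0 < p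
  · rw [if_pos h2]
    simpa [sitesA, sitesB] using e0
  · rw [if_neg h2]
    simpa [sitesA, sitesB] using e2

/-- The squared distance of the two maps is at most `4 + t ^ 2` everywhere. -/
theorem sqDist_strip_wedge_le {i0 i1 : Fin d} (h01 : i0 ≠ i1) (b0 b1 p h t : ℝ)
    (x : Fin d → ℝ) :
    sqDist (stripMap i0 b0 b1 x) (wedgeMap i0 i1 p h t x) ≤ 4 + t ^ 2 := by
  have key : ∀ a b : Fin 3, sqDist (sitesA i0 a) (sitesB i0 i1 t b) ≤ 4 + t ^ 2 := by
    intro a b
    have q0 : sqDist (0 : Fin d → ℝ) 0 = 0 := by simp [sqDist]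
    have q1 : (Pi.single i0 (1 : ℝ) : Fin d → ℝ) i1 = 0 := Pi.single_eq_of_ne (Ne.symm h01) _
    have q2 : (Pi.single i0 (-1 : ℝ) : Fin d → ℝ) i1 = 0 := Pi.single_eq_of_ne (Ne.symm h01) _
    have q3 : sqDist (Pi.single i0 (1 : ℝ) : Fin d → ℝ) 0 = 1 := by
      simp [sqDist, Pi.single_apply]
    have q4 : sqDist (Pi.single i0 (-1 : ℝ) : Fin d → ℝ) 0 = 1 := by
      simp [sqDist, Pi.single_apply]
    fin_cases a <;> fin_cases b <;>
      simp [sitesA, sitesB, sqDist_single, q0, q1, q2, q3, q4] <;> nlinarith [sq_nonneg t]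
  exact key _ _

end Vale.Agent.Helper27.P074Three
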