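import Vale.Agent.Helper10.PMDefs

/-!
Two-way clocks (problem P329): the second counting identity of the master automaton.
An arrival at the class `0` from below at which the entry at `y` is `some true` either has
an empty entry at `0`, or the memory spells exactly one total pattern `s`, and `s y = true`.
-/

namespace Vale.Agent.Helper27.P329IdTwo

open Vale.Agent.Helper10

variable {α : Type} {m : ℕ}

/-- at an arrival at `0` from below with a filled entry at `0` the memory is total -/
theorem lam1_total [NeZero m] (tp : α → Bool) (q : ZMod m × (ZMod m → Option Bool)) (a : α)
    (h : InvK q) (hu2 : q.1 + 1 = 0) (h0 : lam1 tp q a 0 ≠ none) :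
    ∀ j : ZMod m, lam1 tp q a j ≠ none := by
  intro j
  unfold lam1 at h0 ⊢
  by_cases hj : j = q.1
  · rw [hj, Function.update_self]
    exact Option.some_ne_none _
  · rw [Function.update_of_ne hj]
    have hq0 : q.1 ≠ 0 := by
      intro e
      apply hj
      have h1 : (1 : ZMod m) = 0 := by rw [e, zero_add] at hu2; exact hu2
      calc j = j * 1 := (mul_one j).symm
        _ = q.1 * 1 := by rw [h1, mul_zero, mul_zero]
        _ = q.1 := mul_one _
    rw [Function.update_of_ne (fun e => hq0 e.symm)] at h0
    refine h.2 h0 j ?_
    by_contra hlt
    have hne : j.val ≠ q.1.val := fun e => hj (ZMod.val_injective m e)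
    have hjm : j.val < m := ZMod.val_lt j
    have hv : (q.1 + 1).val = 0 := by rw [hu2]; exact ZMod.val_zero
    rw [ZMod.val_add, ZMod.val_one_eq_one_mod, Nat.add_mod_mod, Nat.mod_eq_of_lt (by omega)] at hv
    omega

/-- the identity for one letter -/
theorem step_two [NeZero m] (up tp : α → Bool) (y : ZMod m)
    (q : ZMod m × (ZMod m → Option Bool)) (a : α) (h : InvK q) :
    (if evArrY up tp y q a then 1 else 0)
      = ∑ s : ZMod m → Bool, (if s y = true then (if evPat up tp s q a then 1 else 0) else 0)
        + (if evNW up tp y q a then 1 else 0) := by
  by_cases hu : up a = true ∧ q.1 + 1 = 0
  · obtain ⟨hu1, hu2⟩ := hu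
    by_cases hy : lam1 tp q a y = some true
    · have hA : evArrY up tp y q a = true := by simp [evArrY, hu1, hu2, hy]
      by_cases h0 : lam1 tp q a 0 = none
      · have hN : evNW up tp y q a = true := by simp [evNW, hu1, hu2, hy, h0]
        have hP : ∀ s : ZMod m → Bool, evPat up tp s q a = false := by
          intro s
          have hne : lam1 tp q a ≠ fun j => some (s j) := by
            intro e
            rw [e] at h0
            exact absurd h0 (Option.some_ne_none _)
          simp [evPat, hne]
        rw [if_pos hA, if_pos hN]
        have hz : ∑ s : ZMod m → Bool,
            (if s y = true then (if evPat up tp s q a then 1 else 0) else 0) = 0 := by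
          refine Finset.sum_eq_zero fun s _ => ?_
          rw [hP s]
          simp
        rw [hz]
      · have hN : evNW up tp y q a = false := by simp [evNW, h0]
        have htot := lam1_total tp q a h hu2 h0
        have hs0 : lam1 tp q a = fun j => some ((lam1 tp q a j).getD false) := by
          funext j
          cases hj : lam1 tp q a j with
          | none => exact absurd hj (htot j)
          | some b => rfl
        have hP : ∀ s : ZMod m → Bool, evPat up tp s q a = true ↔
            s = fun j => (lam1 tp q a j).getD false := by
          intro s
          constructor
          · intro hp
            have e : lam1 tp q a = fun j => some (s j) := by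
              simpa [evPat, hu1, hu2] using hp
            funext j
            rw [e]
            rfl
          · intro e
            have e' : lam1 tp q a = fun j => some (s j) := by rw [e]; exact hs0
            simp [evPat, hu1, hu2, e']
        rw [if_pos hA, hN, Finset.sum_eq_single (fun j => (lam1 tp q a j).getD false)]
        · have hy' : (lam1 tp q a y).getD false = true := by rw [hy]; rfl
          rw [if_pos hy', if_pos ((hP _).2 rfl)]
          simp
        · intro s _ hs
          have hf : evPat up tp s q a = false := by
            cases hc : evPat up tp s q a with
            | false => rfl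
            | true => exact absurd ((hP s).1 hc) hs
          rw [hf]
          simp
        · intro hmem
          exact absurd (Finset.mem_univ _) hmem
    · have hA : evArrY up tp y q a = false := by simp [evArrY, hy]
      have hN : evNW up tp y q a = false := by simp [evNW, hy]
      have hz : ∑ s : ZMod m → Bool,
          (if s y = true then (if evPat up tp s q a then 1 else 0) else 0) = 0 := by
        refine Finset.sum_eq_zero fun s _ => ?_
        by_cases hs : s y = true
        · have hf : evPat up tp s q a = false := by
            cases hc : evPat up tp s q a with
            | false => rfl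
            | true =>
              exfalso
              have e : lam1 tp q a = fun j => some (s j) := by
                simpa [evPat, hu1, hu2] using hc
              apply hy
              rw [e]
              show some (s y) = some true
              rw [hs]
          rw [hf]
          simp
        · rw [if_neg hs]
      rw [hA, hN, hz]
      simp
  · have hA : evArrY up tp y q a = false := by
      simp only [evArrY, Bool.and_eq_false_iff, decide_eq_false_iff_not]
      by_cases h1 : up a = true
      · exact Or.inl (Or.inr (fun h2 => hu ⟨h1, h2⟩))
      · exact Or.inl (Or.inl (by simpa using h1))
    have hN : evNW up tp y q a = false := by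
      simp only [evNW, Bool.and_eq_false_iff, decide_eq_false_iff_not]
      by_cases h1 : up a = true
      · exact Or.inl (Or.inl (Or.inr (fun h2 => hu ⟨h1, h2⟩)))
      · exact Or.inl (Or.inl (Or.inl (by simpa using h1)))
    have hP : ∀ s : ZMod m → Bool, evPat up tp s q a = false := by
      intro s
      simp only [evPat, Bool.and_eq_false_iff, decide_eq_false_iff_not]
      by_cases h1 : up a = true
      · exact Or.inl (Or.inr (fun h2 => hu ⟨h1, h2⟩))
      · exact Or.inl (Or.inl (by simpa using h1))
    have hz : ∑ s : ZMod m → Bool,
        (if s y = true then (if evPat up tp s q a then 1 else 0) else 0) = 0 := by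
      refine Finset.sum_eq_zero fun s _ => ?_
      rw [hP s]
      simp
    rw [hA, hN, hz]
    simp

/-- **T8**, from the invariance of `InvK` under the steps of the master automaton -/
theorem id_two_of [NeZero m] (up dn tp : α → Bool) (y : ZMod m)
    (hstep : ∀ (q : ZMod m × (ZMod m → Option Bool)) (a : α), InvK q →
      InvK (mStep up dn tp q a)) :
    ∀ (w : List α) (q : ZMod m × (ZMod m → Option Bool)), InvK q →
      bcount (mStep up dn tp) (evArrY up tp y) q w
        = ∑ s : ZMod m → Bool,
            (if s y = true then bcount (mStep up dn tp) (evPat up tp s) q w else 0)
          + bcount (mStep up dn tp) (evNW up tp y) q w := by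
  intro w
  induction w with
  | nil =>
    intro q _
    simp [bcount]
  | cons a w ih =>
    intro q hq
    have hterm : ∀ s : ZMod m → Bool,
        (if s y = true then bcount (mStep up dn tp) (evPat up tp s) q (a :: w) else 0)
          = (if s y = true then (if evPat up tp s q a then 1 else 0) else 0)
            + (if s y = true then
                bcount (mStep up dn tp) (evPat up tp s) (mStep up dn tp q a) w else 0) := by
      intro s
      by_cases hs : s y = true
      · rw [if_pos hs, if_pos hs, if_pos hs, bcount]
      · rw [if_neg hs, if_neg hs, if_neg hs]
    rw [Finset.sum_congr rfl (fun s _ => hterm s), Finset.sum_add_distrib, bcount, bcount,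
      ih (mStep up dn tp q a) (hstep q a hq), step_two up tp y q a hq]
    ring

end Vale.Agent.Helper27.P329IdTwo
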