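import Vale.Agent.Helper10.PMDefs

/-!
Two-way clocks (problem P329): the automaton with one memory cell is the projection of the
master automaton to the cell `y`; the marked down letters correspond.
-/

namespace Vale.Agent.Helper27.P329Pop

open Vale.Agent.Helper10

variable {α : Type} {m : ℕ}

/-- the entry at `y` of the updated memory of the master automaton is the updated cell of the
automaton with one cell -/
theorem mUpd_apply (up dn tp : α → Bool) (y c : ZMod m) (a : α) (L : ZMod m → Option Bool) :
    mUpd up dn tp c a L y = aUpd up dn tp y c a (L y) := by
  unfold mUpd aUpd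
  by_cases h : up a = true
  · rw [if_pos h, if_pos h]
    by_cases h1 : c + 1 = 0
    · rw [if_pos h1, if_pos h1]
    · rw [if_neg h1, if_neg h1]
      by_cases h2 : c + 1 = y
      · rw [if_pos h2, ← h2, Function.update_self]
      · rw [if_neg h2, Function.update_of_ne (fun e => h2 e.symm)]
        by_cases h3 : c = y
        · rw [if_pos h3, ← h3, Function.update_self]
        · rw [if_neg h3, Function.update_of_ne (fun e => h3 e.symm)]
  · rw [if_neg h, if_neg h]
    by_cases h' : dn a = true
    · rw [if_pos h', if_pos h']
      by_cases h1 : c - 1 = 0
      · rw [if_pos h1, if_pos h1]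
      · rw [if_neg h1, if_neg h1]
        by_cases h2 : c - 1 = y
        · rw [if_pos h2, ← h2, Function.update_self]
        · rw [if_neg h2, Function.update_of_ne (fun e => h2 e.symm)]
    · rw [if_neg h', if_neg h']

/-- one step of the automaton with one cell, started at the projection of a state of the
master automaton -/
theorem aStep_proj (up dn tp : α → Bool) (y : ZMod m) (q : ZMod m × (ZMod m → Option Bool))
    (a : α) :
    aStep up dn tp y (q.1, q.2 y) a
      = ((mStep up dn tp q a).1, (mStep up dn tp q a).2 y) := by
  have h := mUpd_apply up dn tp y q.1 a q.2
  exact Prod.ext rfl h.symm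

/-- **T13**: the marked down letters of the automaton with one cell and of the master
automaton are counted alike -/
theorem pop_proj (up dn tp : α → Bool) (y : ZMod m) :
    ∀ (w : List α) (q : ZMod m × (ZMod m → Option Bool)),
      bcount (aStep up dn tp y) (evPopA up dn y) (q.1, q.2 y) w
        = bcount (mStep up dn tp) (evPop up dn y) q w := by
  intro w
  induction w with
  | nil => intro q; rfl
  | cons a w ih =>
    intro q
    have h2 : evPopA up dn y (q.1, q.2 y) a = evPop up dn y q a := rfl
    rw [bcount, bcount, aStep_proj, h2, ih]

end Vale.Agent.Helper27.P329Pop
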