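import Vale.Agent.Helper10.PMDefs
import Vale.Agent.Helper10.PosMain
import Vale.Agent.Helper10.PMPat
import Vale.Agent.Helper12.P329Cut
import Vale.Agent.Helper12.P329Pop
import Vale.Agent.Helper15.P329Cf
import Vale.Agent.Helper21.P329PM
import Vale.Agent.Helper21.P329Word
import Vale.Agent.Helper25.P329FibreGen
import Vale.Agent.Helper28.P329Base
import Vale.Agent.Helper28.P329Mobius
import Vale.Agent.Helper29.P329CountPM
import Vale.Agent.Helper27.P329Pop
import Vale.Agent.Helper27.P329IdTwo

/-!
# Two-way clocks (problem P329): assembly

The statistics of the master automaton which enter the two identities on up letters are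
measurable, and the statement on the up letters of a two-way clock follows by the induction
on the modulus.
-/

namespace Vale.Agent.Helper27.P329Asm

open Vale.Agent.Helper10

section general

variable {α : Type}

theorem and_not_left {a b : Bool} (h : (a && !b) = true) : a = true := by
  cases a <;> simp_all

/-- T19: splitting the marked transitions -/
theorem bcount_and_not {I : Type} (δ : I → α → I) (A B : I → α → Bool)
    (h : ∀ i a, B i a = true → A i a = true) :
    ∀ (w : List α) (i : I),
      bcount δ (fun i a => A i a && !B i a) i w + bcount δ B i w = bcount δ A i w := by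
  intro w
  induction w with
  | nil => intro i; rfl
  | cons a w ih =>
    intro i
    show ((if (A i a && !B i a) = true then 1 else 0)
          + bcount δ (fun i a => A i a && !B i a) (δ i a) w)
        + ((if B i a = true then 1 else 0) + bcount δ B (δ i a) w)
      = (if A i a = true then 1 else 0) + bcount δ A (δ i a) w
    rw [← ih (δ i a)]
    have hstep : (if (A i a && !B i a) = true then 1 else 0) + (if B i a = true then 1 else 0)
        = (if A i a = true then (1 : ℕ) else 0) := by
      by_cases hB : B i a = true
      · have hA := h i a hB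
        simp [hA, hB]
      · have hB' : B i a = false := by simpa using hB
        by_cases hA : A i a = true
        · simp [hA, hB']
        · have hA' : A i a = false := by simpa using hA
          simp [hA', hB']
    omega

/-- an algebraic identity for the combination of the counts -/
theorem comb_identity {ι σ : Type} [Fintype ι] [Fintype σ] (lam : ι → ℤ) (A F : ι → ℤ)
    (T : σ → ℤ) (c : σ → ι → ℤ) (h : ∀ y, F y = A y + ∑ s, c s y * T s) :
    (∑ y, lam y * A y) + ∑ s, (∑ y, lam y * c s y) * T s = ∑ y, lam y * F y := by
  have h2 : ∑ y, lam y * ∑ s, c s y * T s = ∑ s, (∑ y, lam y * c s y) * T s := by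
    simp only [Finset.mul_sum, Finset.sum_mul]
    rw [Finset.sum_comm]
    refine Finset.sum_congr rfl (fun s _ => Finset.sum_congr rfl (fun y _ => ?_))
    ring
  rw [← h2, ← Finset.sum_add_distrib]
  refine Finset.sum_congr rfl (fun y _ => ?_)
  rw [h y]
  ring

end general

section pm

variable {α : Type} {m : ℕ}

theorem evNW_arr0 (up dn tp : α → Bool) (y : ZMod m) (q : ZMod m × (ZMod m → Option Bool))
    (a : α) (h : evNW up tp y q a = true) : evArr0 up dn q a = true := by
  unfold evNW at h
  unfold evArr0 clsArr
  simp only [Bool.and_eq_true, decide_eq_true_eq] at h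
  simp [h.1.1.1, h.1.1.2]

theorem evPat_arr0 [NeZero m] (up dn tp : α → Bool) (s : ZMod m → Bool)
    (q : ZMod m × (ZMod m → Option Bool)) (a : α) (h : evPat up tp s q a = true) :
    evArr0 up dn q a = true := by
  unfold evPat at h
  unfold evArr0 clsArr
  simp only [Bool.and_eq_true, decide_eq_true_eq] at h
  simp [h.1.1, h.1.2]

theorem evPopA_arrA (up dn : α → Bool) (y : ZMod m) (q : ZMod m × Option Bool) (a : α)
    (h : evPopA up dn y q a = true) : evArrA up dn y q a = true := by
  unfold evPopA at h
  unfold evArrA clsArr
  simp only [Bool.and_eq_true, decide_eq_true_eq, Bool.not_eq_true'] at h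
  simp [h.1.1.1, h.1.1.2, h.1.2]

/-- the projection of a two-way clock is a two-way clock -/
theorem dgPM_cast {d : ℕ} (hd : d ∣ m) (up dn : α → Bool) :
    (fun a => ZMod.castHom hd (ZMod d) (dgPM m up dn a)) = dgPM d up dn := by
  funext a
  unfold dgPM
  by_cases hu : up a = true
  · rw [if_pos hu, if_pos hu, map_one]
  · rw [if_neg hu, if_neg hu]
    by_cases hdn : dn a = true
    · rw [if_pos hdn, if_pos hdn, map_neg, map_one]
    · rw [if_neg hdn, if_neg hdn, map_zero]

/-- T18: the final entry of the memory -/
theorem pend_meas [Finite α] [NeZero m] (up dn tp : α → Bool) (y : ZMod m) :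
    Meas (fun w : List α =>
      (if (run (mStep up dn tp) (mBase m) w).2 y = some true then (1 : ℤ) else 0)) := by
  intro e _ r
  exact gstat_gsh (mStep (m := m) up dn tp) (evArr0 up dn) (mBase m) 1
    (Vale.Agent.Helper12.P329Cut.m_cut_cf up dn tp)
    (fun q a h => arr0_base up dn tp q a h) (mBase m)
    (fun p => (((if p.2.2 y = some true then (1 : ℤ) else 0) : ℤ) : ZMod e) = r)

/-- T20: the arrivals at the class `0` -/
theorem arr0_meas [Finite α] [NeZero m] (up dn tp : α → Bool) :
    Meas (fun w : List α =>
      ((bcount (mStep up dn tp) (evArr0 up dn) (mBase m) w : ℕ) : ℤ)) :=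
  Vale.Agent.Helper29.P329.bcount_meas (mStep (m := m) up dn tp) (evArr0 up dn) (mBase m)
    (Vale.Agent.Helper12.P329Cut.m_cut_cf up dn tp)
    (fun q a h => arr0_base up dn tp q a h) (mBase m)

/-- T20: the arrivals with an entry `some true` at `y` and an empty entry at `0` -/
theorem nw_meas_of [Finite α] [NeZero m] (up dn tp : α → Bool) (y : ZMod m)
    (hcf : CounterFree (gOpt (mStep (m := m) up dn tp)
      (fun q a => evArr0 up dn q a && !evNW up tp y q a))) :
    Meas (fun w : List α =>
      ((bcount (mStep up dn tp) (evNW up tp y) (mBase m) w : ℕ) : ℤ)) := by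
  have h1 := Vale.Agent.Helper29.P329.bcount_meas (mStep (m := m) up dn tp)
    (fun q a => evArr0 up dn q a && !evNW up tp y q a) (mBase m) hcf
    (fun q a h => arr0_base up dn tp q a (and_not_left h)) (mBase m)
  refine ((arr0_meas (m := m) up dn tp).sub h1).congr (fun w => ?_)
  have h2 := bcount_and_not (mStep (m := m) up dn tp) (evArr0 up dn) (evNW up tp y)
    (fun q a h => evNW_arr0 up dn tp y q a h) w (mBase m)
  omega

/-- T20: the arrivals at which the memory spells the pattern `s` -/
theorem pat_meas_of [Finite α] [NeZero m] (up dn tp : α → Bool) (s : ZMod m → Bool)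
    (hcf : CounterFree (gOpt (mStep (m := m) up dn tp)
      (fun q a => evArr0 up dn q a && !evPat up tp s q a))) :
    Meas (fun w : List α =>
      ((bcount (mStep up dn tp) (evPat up tp s) (mBase m) w : ℕ) : ℤ)) := by
  have h1 := Vale.Agent.Helper29.P329.bcount_meas (mStep (m := m) up dn tp)
    (fun q a => evArr0 up dn q a && !evPat up tp s q a) (mBase m) hcf
    (fun q a h => arr0_base up dn tp q a (and_not_left h)) (mBase m)
  refine ((arr0_meas (m := m) up dn tp).sub h1).congr (fun w => ?_)
  have h2 := bcount_and_not (mStep (m := m) up dn tp) (evArr0 up dn) (evPat up tp s)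
    (fun q a h => evPat_arr0 up dn tp s q a h) w (mBase m)
  omega

/-- T20: the pops at the class `y` -/
theorem pop_meas_of [Finite α] [NeZero m] (up dn tp : α → Bool) (y : ZMod m)
    (hcf : CounterFree (gOpt (aStep (m := m) up dn tp y)
      (fun q a => evArrA up dn y q a && !evPopA up dn y q a))) :
    Meas (fun w : List α =>
      ((bcount (mStep up dn tp) (evPop up dn y) (mBase m) w : ℕ) : ℤ)) := by
  have harr : ∀ (q : ZMod m × Option Bool) (a : α), evArrA up dn y q a = true →
      aStep up dn tp y q a = (y, none) :=
    fun q a h => Vale.Agent.Helper12.P329Pop.aStep_arr up dn tp y q a h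
  have h0 := Vale.Agent.Helper29.P329.bcount_meas (aStep (m := m) up dn tp y) (evArrA up dn y)
    (y, none) (Vale.Agent.Helper12.P329Cut.a_cut_cf up dn tp y) harr ((0 : ZMod m), none)
  have h1 := Vale.Agent.Helper29.P329.bcount_meas (aStep (m := m) up dn tp y)
    (fun q a => evArrA up dn y q a && !evPopA up dn y q a) (y, none) hcf
    (fun q a h => harr q a (and_not_left h)) ((0 : ZMod m), none)
  refine (h0.sub h1).congr (fun w => ?_)
  have h2 := bcount_and_not (aStep (m := m) up dn tp y) (evArrA up dn y) (evPopA up dn y)
    (fun q a h => evPopA_arrA up dn y q a h) w ((0 : ZMod m), none)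
  have h3 : bcount (aStep up dn tp y) (evPopA up dn y) ((0 : ZMod m), none) w
      = bcount (mStep up dn tp) (evPop up dn y) (mBase m) w :=
    Vale.Agent.Helper27.P329Pop.pop_proj up dn tp y w (mBase m)
  rw [← h3]
  omega

/-- the pattern detector for a primitive pattern -/
theorem pat_cf [NeZero m] (up dn tp : α → Bool) (s : ZMod m → Bool)
    (hprim : ∀ g : ZMod m, (∀ i, s (i + g) = s i) → g = 0) :
    CounterFree (gOpt (mStep (m := m) up dn tp)
      (fun q a => evArr0 up dn q a && !evPat up tp s q a)) :=
  pat_cf_of up dn tp s
    (fun δ bad bad0 i0 h0 hcut hb =>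
      Vale.Agent.Helper28.P329Base.cf_of_base δ bad bad0 i0 h0 hcut hb)
    (Vale.Agent.Helper12.P329Cut.m_cut_cf up dn tp)
    (fun τ n k hn h => Vale.Agent.Helper21.len_of_pow_eq s hprim τ n k hn h)

/-- **T21.** The statement on the up letters of a two-way clock. -/
theorem up_stmt : Vale.Agent.Helper29.P329.UpStmt := by
  intro α _ m
  induction m using Nat.strong_induction_on with
  | _ m ih =>
    intro hm up dn tp x
    refine Vale.Agent.Helper28.P329Mobius.mobius_step (α := α) (m := m) Meas
      (fun f g hf hg => hf.add hg) (fun k f hf => hf.smul k) (fun k f hk hf => Meas.div k hk hf)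
      (fun y w => ((cnt (dgPM m up dn) (fun a => up a = true ∧ tp a = true) y 0 w : ℕ) : ℤ))
      ?_ ?_ x
    · intro d hd hlt y
      have hd0 : NeZero d := ⟨fun h0 => by
        subst h0
        exact hm.out (Nat.eq_zero_of_zero_dvd hd)⟩
      have h1 := ih d hlt up dn tp (ZMod.castHom hd (ZMod d) y)
      refine h1.congr (fun w => ?_)
      rw [← Nat.cast_sum,
        Vale.Agent.Helper25.P329FibreGen.cnt_fibre_gen hd (dgPM m up dn)
          (fun a => up a = true ∧ tp a = true) y 0 w,
        map_zero, dgPM_cast hd up dn]
    · intro lam hlam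
      have hA := Meas.sum Finset.univ
        (fun (y : ZMod m) (w : List α) => lam y *
          ((((bcount (mStep up dn tp) (evPop up dn y) (mBase m) w : ℕ) : ℤ)
            + ((bcount (mStep up dn tp) (evNW up tp y) (mBase m) w : ℕ) : ℤ))
            + (if (run (mStep up dn tp) (mBase m) w).2 y = some true then (1 : ℤ) else 0)))
        (fun y _ =>
          (((pop_meas_of up dn tp y (Vale.Agent.Helper15.P329.pop_cf up dn tp y)).add
            (nw_meas_of up dn tp y (Vale.Agent.Helper15.P329.nw_cf up dn tp y))).add
            (pend_meas up dn tp y)).smul (lam y))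
      have hB := Meas.sum Finset.univ
        (fun (s : ZMod m → Bool) (w : List α) =>
          (∑ y, lam y * (if s y = true then (1 : ℤ) else 0)) *
            ((bcount (mStep up dn tp) (evPat up tp s) (mBase m) w : ℕ) : ℤ))
        (fun s _ => by
          by_cases hs : ∃ g : ZMod m, g ≠ 0 ∧ ∀ i, s (i + g) = s i
          · have h0 : ∑ y, lam y * (if s y = true then (1 : ℤ) else 0) = 0 := hlam s hs
            refine Meas.zero.congr (fun w => ?_)
            rw [h0, zero_mul]
          · have hprim : ∀ g : ZMod m, (∀ i, s (i + g) = s i) → g = 0 := by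
              intro g hg
              by_contra hne
              exact hs ⟨g, hne, hg⟩
            exact (pat_meas_of up dn tp s (pat_cf up dn tp s hprim)).smul _)
      refine (hA.add hB).congr (fun w => ?_)
      have h1 : ∀ y : ZMod m,
          ((cnt (dgPM m up dn) (fun a => up a = true ∧ tp a = true) y 0 w : ℕ) : ℤ)
            = ((((bcount (mStep up dn tp) (evPop up dn y) (mBase m) w : ℕ) : ℤ)
                + ((bcount (mStep up dn tp) (evNW up tp y) (mBase m) w : ℕ) : ℤ))
                + (if (run (mStep up dn tp) (mBase m) w).2 y = some true then (1 : ℤ) else 0))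
              + ∑ s : ZMod m → Bool, (if s y = true then (1 : ℤ) else 0) *
                  ((bcount (mStep up dn tp) (evPat up tp s) (mBase m) w : ℕ) : ℤ) := by
        intro y
        have e1 : cnt (dgPM m up dn) (fun a => up a = true ∧ tp a = true) y 0 w
              + (if (none : Option Bool) = some true then 1 else 0)
            = bcount (mStep up dn tp) (evPop up dn y) (mBase m) w
              + bcount (mStep up dn tp) (evArrY up tp y) (mBase m) w
              + (if (run (mStep up dn tp) (mBase m) w).2 y = some true then 1 else 0) :=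
          Vale.Agent.Helper21.id_one up dn tp y w (mBase m) Vale.Agent.Helper21.invK_base
        have e2 := Vale.Agent.Helper27.P329IdTwo.id_two_of up dn tp y
          (fun q a hq => Vale.Agent.Helper21.invK_step up dn tp q a hq) w (mBase m)
          Vale.Agent.Helper21.invK_base
        have e3 : (if (none : Option Bool) = some true then 1 else 0) = (0 : ℕ) := by simp
        rw [e3, add_zero, e2] at e1
        rw [e1]
        push_cast
        simp only [ite_mul, one_mul, zero_mul]
        ring
      exact comb_identity lam
        (fun y => (((bcount (mStep up dn tp) (evPop up dn y) (mBase m) w : ℕ) : ℤ)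
            + ((bcount (mStep up dn tp) (evNW up tp y) (mBase m) w : ℕ) : ℤ))
            + (if (run (mStep up dn tp) (mBase m) w).2 y = some true then (1 : ℤ) else 0))
        (fun y => ((cnt (dgPM m up dn) (fun a => up a = true ∧ tp a = true) y 0 w : ℕ) : ℤ))
        (fun s => ((bcount (mStep up dn tp) (evPat up tp s) (mBase m) w : ℕ) : ℤ))
        (fun s y => if s y = true then (1 : ℤ) else 0) h1

end pm

end Vale.Agent.Helper27.P329Asm
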