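import Vale.Agent.Helper10.PosDefs

/-!
# Fibre sums of positional counts (board task 105 F, for P329)

Summing the positional counts modulo `m` over a fibre of the reduction `ZMod m → ZMod d`
gives the positional count modulo `d`.
-/

namespace Vale.Agent.Helper27.P329Fibre

open Vale.Agent.Helper10

theorem cnt_fibre {α : Type} {m d : ℕ} [NeZero m] (hd : d ∣ m) (adv : α → Bool)
    (sp : α → Prop) [DecidablePred sp] (y c : ZMod m) (w : List α) :
    ∑ h ∈ Finset.univ.filter (fun h : ZMod m => ZMod.castHom hd (ZMod d) h = 0),
        cnt (fun a => if adv a then (1 : ZMod m) else 0) sp (y + h) c w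
      = cnt (fun a => if adv a then (1 : ZMod d) else 0) sp
          (ZMod.castHom hd (ZMod d) y) (ZMod.castHom hd (ZMod d) c) w := by
  induction w generalizing c with
  | nil => simp [cnt]
  | cons a w ih =>
    simp only [cnt]
    rw [Finset.sum_add_distrib, ih]
    congr 1
    · by_cases hsp : sp a
      · simp only [hsp, true_and]
        have h1 : ∀ h : ZMod m, (c = y + h) ↔ (c - y = h) := by
          intro h
          constructor
          · intro e; rw [e]; ring
          · intro e; rw [← e]; ring
        simp only [h1]
        rw [Finset.sum_ite_eq]
        simp only [Finset.mem_filter, Finset.mem_univ, true_and, map_sub, sub_eq_zero]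
      · simp [hsp]
    · congr 1
      by_cases hadv : adv a = true
      · rw [if_pos hadv, if_pos hadv, map_add, map_one]
      · rw [if_neg hadv, if_neg hadv, add_zero, add_zero]

end Vale.Agent.Helper27.P329Fibre
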