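import Vale.Agent.Helper14.PrimeTile

/-!
Translational tilings by direct products of tiles: factors of a product tile are tiles,
products of periodic tilings are periodic tilings, every tiling of the integers by a finite
set has a period, and bricks in the integer lattice admit periodic tilings.
-/

namespace Vale.Agent.Helper27.ProductTile

open Vale.Agent.Helper14.PrimeTile

section general

variable {G : Type*} [AddCommGroup G]

/-- Local rule of a tiling: for a fixed element `f₀` of the tile, `x` belongs to the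
translation set iff no other tile element `f` has `x + f₀ - f` in the translation set. -/
lemma mem_iff_forall_not_mem {A : Set G} {F : Finset G} (hT : IsTiling A F) {f₀ : G}
    (hf₀ : f₀ ∈ F) (x : G) : x ∈ A ↔ ∀ f ∈ F, f ≠ f₀ → x + f₀ - f ∉ A := by
  obtain ⟨⟨a, f⟩, ⟨ha, hf, h⟩, huniq⟩ := hT (x + f₀)
  simp only at ha hf h
  constructor
  · intro hx f' hf' hne hmem
    have h1 := huniq (x, f₀) ⟨hx, hf₀, rfl⟩
    have h2 := huniq (x + f₀ - f', f') ⟨hmem, hf', sub_add_cancel _ _⟩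
    have h3 : (x, f₀) = (x + f₀ - f', f') := h1.trans h2.symm
    exact hne (Prod.ext_iff.mp h3).2.symm
  · intro hall
    by_cases hff : f = f₀
    · subst hff
      have : a = x := add_right_cancel h
      rwa [← this]
    · exfalso
      apply hall f hf hff
      have : x + f₀ - f = a := by rw [← h]; abel
      rwa [this]

/-- A set invariant under all translations `N • y` (with `N ≠ 0`) in a finitely generated
abelian group is periodic. -/
lemma isPeriodic_of_smul [Module.Finite ℤ G] {A : Set G} (N : ℤ) (hN : N ≠ 0)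
    (h : ∀ y : G, ∀ a ∈ A, a + N • y ∈ A) : IsPeriodic A := by
  refine ⟨_, finiteIndex_smul_top (G := G) N hN, ?_⟩
  intro g hg a ha
  have hg' : g ∈ (Ideal.span {N} : Ideal ℤ) • (⊤ : Submodule ℤ G) := hg
  rw [Submodule.ideal_span_singleton_smul] at hg'
  obtain ⟨n, -, rfl⟩ := (Submodule.mem_smul_pointwise_iff_exists _ _ _).mp hg'
  exact h n a ha

end general

section product

variable {G₁ G₂ : Type*} [AddCommGroup G₁] [AddCommGroup G₂]

/-- The first factor of a product tile is a tile (slice of the tiling). -/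
theorem isTiling_fst {B : Set (G₁ × G₂)} {F₁ : Finset G₁} {F₂ : Finset G₂}
    (hB : IsTiling B (F₁ ×ˢ F₂)) :
    IsTiling {a : G₁ | ∃ b₂ : G₂, (a, b₂) ∈ B ∧ -b₂ ∈ F₂} F₁ := by
  intro g
  obtain ⟨⟨⟨b₁, b₂⟩, ⟨f₁, f₂⟩⟩, ⟨hb, hf, h⟩, huniq⟩ := hB (g, 0)
  simp only [Finset.mem_product, Prod.mk_add_mk, Prod.mk.injEq] at hb hf h
  have e2 : -b₂ = f₂ := neg_eq_of_add_eq_zero_right h.2
  refine ⟨(b₁, f₁), ⟨⟨b₂, hb, e2 ▸ hf.2⟩, hf.1, h.1⟩, ?_⟩
  rintro ⟨a, φ⟩ ⟨⟨c₂, hc, hc'⟩, hφ, hsum⟩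
  simp only at hφ hsum
  have key := huniq ((a, c₂), (φ, -c₂))
    ⟨hc, Finset.mem_product.mpr ⟨hφ, hc'⟩, by simp [hsum]⟩
  simp only [Prod.mk.injEq] at key
  rw [key.1.1, key.2.1]

/-- The second factor of a product tile is a tile (slice of the tiling). -/
theorem isTiling_snd {B : Set (G₁ × G₂)} {F₁ : Finset G₁} {F₂ : Finset G₂}
    (hB : IsTiling B (F₁ ×ˢ F₂)) :
    IsTiling {a : G₂ | ∃ b₁ : G₁, (b₁, a) ∈ B ∧ -b₁ ∈ F₁} F₂ := by
  intro g
  obtain ⟨⟨⟨b₁, b₂⟩, ⟨f₁, f₂⟩⟩, ⟨hb, hf, h⟩, huniq⟩ := hB (0, g)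
  simp only [Finset.mem_product, Prod.mk_add_mk, Prod.mk.injEq] at hb hf h
  have e1 : -b₁ = f₁ := neg_eq_of_add_eq_zero_right h.1
  refine ⟨(b₂, f₂), ⟨⟨b₁, hb, e1 ▸ hf.1⟩, hf.2, h.2⟩, ?_⟩
  rintro ⟨a, φ⟩ ⟨⟨c₁, hc, hc'⟩, hφ, hsum⟩
  simp only at hφ hsum
  have key := huniq ((c₁, a), (-c₁, φ))
    ⟨hc, Finset.mem_product.mpr ⟨hc', hφ⟩, by simp [hsum]⟩
  simp only [Prod.mk.injEq] at key
  rw [key.1.2, key.2.2]

/-- The product of two tilings is a tiling by the product tile. -/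
theorem isTiling_prod {A₁ : Set G₁} {A₂ : Set G₂} {F₁ : Finset G₁} {F₂ : Finset G₂}
    (h₁ : IsTiling A₁ F₁) (h₂ : IsTiling A₂ F₂) : IsTiling (A₁ ×ˢ A₂) (F₁ ×ˢ F₂) := by
  rintro ⟨g₁, g₂⟩
  obtain ⟨⟨a₁, f₁⟩, ⟨ha₁, hf₁, e₁⟩, u₁⟩ := h₁ g₁
  obtain ⟨⟨a₂, f₂⟩, ⟨ha₂, hf₂, e₂⟩, u₂⟩ := h₂ g₂
  simp only at ha₁ hf₁ e₁ ha₂ hf₂ e₂
  refine ⟨((a₁, a₂), (f₁, f₂)), ⟨⟨ha₁, ha₂⟩, Finset.mem_product.mpr ⟨hf₁, hf₂⟩, ?_⟩, ?_⟩
  · simp [e₁, e₂]
  · rintro ⟨⟨c₁, c₂⟩, ⟨φ₁, φ₂⟩⟩ ⟨⟨hc₁, hc₂⟩, hφ, hsum⟩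
    simp only [Finset.mem_product, Prod.mk_add_mk, Prod.mk.injEq] at hc₁ hc₂ hφ hsum
    have k₁ := u₁ (c₁, φ₁) ⟨hc₁, hφ.1, hsum.1⟩
    have k₂ := u₂ (c₂, φ₂) ⟨hc₂, hφ.2, hsum.2⟩
    simp only [Prod.mk.injEq] at k₁ k₂
    rw [k₁.1, k₁.2, k₂.1, k₂.2]

/-- The product of two periodic sets is periodic. -/
theorem isPeriodic_prod {A₁ : Set G₁} {A₂ : Set G₂} (h₁ : IsPeriodic A₁)
    (h₂ : IsPeriodic A₂) : IsPeriodic (A₁ ×ˢ A₂) := by
  obtain ⟨H₁, hH₁, p₁⟩ := h₁
  obtain ⟨H₂, hH₂, p₂⟩ := h₂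
  have hidx : (H₁.prod H₂).index ≠ 0 := by
    rw [AddSubgroup.index_prod]
    exact mul_ne_zero hH₁.index_ne_zero hH₂.index_ne_zero
  refine ⟨H₁.prod H₂, ⟨hidx⟩, ?_⟩
  rintro ⟨x₁, x₂⟩ ⟨hx₁, hx₂⟩ ⟨a₁, a₂⟩ ⟨ha₁, ha₂⟩
  exact ⟨p₁ x₁ hx₁ a₁ ha₁, p₂ x₂ hx₂ a₂ ha₂⟩

/-- The slice of a periodic set along the first factor is periodic. -/
theorem isPeriodic_fst {B : Set (G₁ × G₂)} {F₂ : Finset G₂} (hB : IsPeriodic B) :
    IsPeriodic {a : G₁ | ∃ b₂ : G₂, (a, b₂) ∈ B ∧ -b₂ ∈ F₂} := by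
  obtain ⟨H, hH, hp⟩ := hB
  refine ⟨H.comap (AddMonoidHom.inl G₁ G₂), ⟨?_⟩, ?_⟩
  · rw [AddSubgroup.index_comap]
    intro h0
    have hd := AddSubgroup.relIndex_dvd_index_of_normal (H := H)
      (K := (AddMonoidHom.inl G₁ G₂).range)
    rw [h0] at hd
    exact hH.index_ne_zero (Nat.eq_zero_of_zero_dvd hd)
  · rintro h hh a ⟨b₂, hab, hb⟩
    refine ⟨b₂, ?_, hb⟩
    have hmem := hp (h, 0) hh (a, b₂) hab
    simpa using hmem

/-- The slice of a periodic set along the second factor is periodic. -/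
theorem isPeriodic_snd {B : Set (G₁ × G₂)} {F₁ : Finset G₁} (hB : IsPeriodic B) :
    IsPeriodic {a : G₂ | ∃ b₁ : G₁, (b₁, a) ∈ B ∧ -b₁ ∈ F₁} := by
  obtain ⟨H, hH, hp⟩ := hB
  refine ⟨H.comap (AddMonoidHom.inr G₁ G₂), ⟨?_⟩, ?_⟩
  · rw [AddSubgroup.index_comap]
    intro h0
    have hd := AddSubgroup.relIndex_dvd_index_of_normal (H := H)
      (K := (AddMonoidHom.inr G₁ G₂).range)
    rw [h0] at hd
    exact hH.index_ne_zero (Nat.eq_zero_of_zero_dvd hd)
  · rintro h hh a ⟨b₁, hab, hb⟩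
    refine ⟨b₁, ?_, hb⟩
    have hmem := hp (0, h) hh (b₁, a) hab
    simpa using hmem

end product

section line

/-- A period of a subset of the integers is inherited by all its integer multiples. -/
lemma period_mul {A : Set ℤ} {P : ℤ} (h : ∀ x, x ∈ A ↔ x + P ∈ A) (k : ℤ) :
    ∀ x, x ∈ A ↔ x + k * P ∈ A := by
  induction k using Int.induction_on with
  | zero => intro x; simp
  | succ k ih =>
    intro x
    rw [ih x, h (x + (k : ℤ) * P)]
    have e : x + (k : ℤ) * P + P = x + ((k : ℤ) + 1) * P := by ring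
    rw [e]
  | pred k ih =>
    intro x
    rw [ih x, h (x + (-(k : ℤ) - 1) * P)]
    have e : x + (-(k : ℤ) - 1) * P + P = x + -(k : ℤ) * P := by ring
    rw [e]

/-- Every tiling of the integers by a finite set has a positive period (pigeonhole on windows
of the translation set and the two one-sided local rules). -/
theorem int_exists_period {A : Set ℤ} {F : Finset ℤ} (hT : IsTiling A F) :
    ∃ P : ℤ, 0 < P ∧ ∀ x, x ∈ A ↔ x + P ∈ A := by
  have hF : F.Nonempty := by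
    obtain ⟨⟨a, f⟩, ⟨-, hf, -⟩, -⟩ := hT 0
    exact ⟨f, hf⟩
  set m := F.min' hF with hm
  set M := F.max' hF with hM
  have hmF : m ∈ F := F.min'_mem hF
  have hMF : M ∈ F := F.max'_mem hF
  have hfw := mem_iff_forall_not_mem hT hmF
  have hbw := mem_iff_forall_not_mem hT hMF
  have hmM : m ≤ M := F.min'_le M hMF
  obtain ⟨n, hnM⟩ : ∃ n : ℕ, (n : ℤ) = M - m := ⟨(M - m).toNat, Int.toNat_of_nonneg (by linarith)⟩
  let W : ℤ → (Fin n → Prop) := fun t u => t + (u : ℤ) ∈ A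
  have key : ∀ t₁ t₂ : ℤ, t₁ < t₂ → W t₁ = W t₂ → ∀ x, x ∈ A ↔ x + (t₂ - t₁) ∈ A := by
    intro t₁ t₂ hlt hW
    have hwin : ∀ x, t₁ ≤ x → x < t₁ + n → (x ∈ A ↔ x + (t₂ - t₁) ∈ A) := by
      intro x h1 h2
      have hu : (x - t₁).toNat < n := by omega
      have hc := congrFun hW ⟨(x - t₁).toNat, hu⟩
      simp only [W] at hc
      have e : ((x - t₁).toNat : ℤ) = x - t₁ := Int.toNat_of_nonneg (by linarith)
      rw [e] at hc
      have e1 : t₁ + (x - t₁) = x := by ring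
      have e2 : t₂ + (x - t₁) = x + (t₂ - t₁) := by ring
      rw [e1, e2] at hc
      exact iff_of_eq hc
    have hfwd : ∀ k : ℕ, ∀ x, t₁ ≤ x → x < t₁ + k → (x ∈ A ↔ x + (t₂ - t₁) ∈ A) := by
      intro k
      induction k with
      | zero => intro x h1 h2; exfalso; simp at h2; omega
      | succ k ih =>
        intro x h1 h2
        push_cast at h2
        by_cases hx : x < t₁ + k
        · exact ih x h1 hx
        by_cases hx2 : x < t₁ + n
        · exact hwin x h1 hx2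
        rw [hfw x, hfw (x + (t₂ - t₁))]
        refine forall_congr' fun f => forall_congr' fun hf => forall_congr' fun hne => ?_
        have h3 : m ≤ f := F.min'_le f hf
        have h4 : f ≤ M := F.le_max' f hf
        have h5 : m < f := lt_of_le_of_ne h3 (Ne.symm hne)
        have hi := ih (x + m - f) (by omega) (by omega)
        have e : x + (t₂ - t₁) + m - f = x + m - f + (t₂ - t₁) := by ring
        rw [e]
        exact not_congr hi
    have hbwd : ∀ k : ℕ, ∀ x, t₁ - k ≤ x → x < t₁ + n → (x ∈ A ↔ x + (t₂ - t₁) ∈ A) := by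
      intro k
      induction k with
      | zero => intro x h1 h2; exact hwin x (by simpa using h1) h2
      | succ k ih =>
        intro x h1 h2
        push_cast at h1
        by_cases hx : t₁ - k ≤ x
        · exact ih x hx h2
        rw [hbw x, hbw (x + (t₂ - t₁))]
        refine forall_congr' fun f => forall_congr' fun hf => forall_congr' fun hne => ?_
        have h3 : m ≤ f := F.min'_le f hf
        have h4 : f ≤ M := F.le_max' f hf
        have h5 : f < M := lt_of_le_of_ne h4 hne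
        have hi := ih (x + M - f) (by omega) (by omega)
        have e : x + (t₂ - t₁) + M - f = x + M - f + (t₂ - t₁) := by ring
        rw [e]
        exact not_congr hi
    intro x
    by_cases hx : t₁ ≤ x
    · exact hfwd ((x - t₁).toNat + 1) x hx (by push_cast; omega)
    · exact hbwd (t₁ - x).toNat x (by omega) (by omega)
  obtain ⟨t₁, t₂, hne, hW⟩ := Finite.exists_ne_map_eq_of_infinite W
  rcases lt_or_gt_of_ne hne with h | h
  · exact ⟨t₂ - t₁, by linarith, key t₁ t₂ h hW⟩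
  · exact ⟨t₁ - t₂, by linarith, key t₂ t₁ h hW.symm⟩

/-- Every tiling of the integers by a finite set is periodic. -/
theorem int_isPeriodic {A : Set ℤ} {F : Finset ℤ} (hT : IsTiling A F) : IsPeriodic A := by
  obtain ⟨P, hP, h⟩ := int_exists_period hT
  refine isPeriodic_of_smul P hP.ne' fun y a ha => ?_
  have := (period_mul h y a).mp ha
  rwa [smul_eq_mul, mul_comm]

end line

section brick

/-- Slice of a tiling by a brick along one coordinate axis: a tiling of the integers by the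
corresponding factor. -/
theorem isTiling_slice {d : ℕ} {F : Fin d → Finset ℤ} {B : Set (Fin d → ℤ)}
    (hB : IsTiling B (Fintype.piFinset F)) (i : Fin d) :
    IsTiling {a : ℤ | ∃ b ∈ B, b i = a ∧ ∀ j, j ≠ i → -b j ∈ F j} (F i) := by
  intro g
  obtain ⟨⟨b, f⟩, ⟨hb, hf, h⟩, huniq⟩ := hB (Pi.single i g)
  simp only at hb hf h
  rw [Fintype.mem_piFinset] at hf
  refine ⟨(b i, f i), ⟨⟨b, hb, rfl, ?_⟩, hf i, ?_⟩, ?_⟩
  · intro j hj
    have hj' := congrFun h j
    simp only [Pi.add_apply, Pi.single_eq_of_ne hj] at hj'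
    have e : -b j = f j := by linarith
    rw [e]; exact hf j
  · have hi := congrFun h i
    simpa using hi
  · rintro ⟨a, φ⟩ ⟨⟨c, hc, hci, hcj⟩, hφ, hsum⟩
    simp only at hφ hsum hci
    have key := huniq (c, Function.update (-c) i φ) ⟨hc, ?_, ?_⟩
    · simp only [Prod.mk.injEq] at key
      obtain ⟨k1, k2⟩ := key
      have e1 : a = b i := by rw [← hci, k1]
      have e2 : φ = f i := by rw [← k2]; simp
      rw [e1, e2]
    · rw [Fintype.mem_piFinset]
      intro j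
      by_cases hj : j = i
      · subst hj; simpa using hφ
      · simpa [Function.update_of_ne hj] using hcj j hj
    · funext j
      by_cases hj : j = i
      · subst hj; simp [hci, hsum]
      · simp [Function.update_of_ne hj, Pi.single_eq_of_ne hj]

/-- A brick (product of finite sets of integers) that tiles the integer lattice admits a
periodic tiling. -/
theorem brick_periodic {d : ℕ} {F : Fin d → Finset ℤ} {B : Set (Fin d → ℤ)}
    (hB : IsTiling B (Fintype.piFinset F)) :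
    ∃ A : Set (Fin d → ℤ), IsTiling A (Fintype.piFinset F) ∧ IsPeriodic A := by
  have hs := fun i => isTiling_slice hB i
  have hp := fun i => int_exists_period (hs i)
  choose P hPpos hP using hp
  refine ⟨{x | ∀ i, x i ∈ {a : ℤ | ∃ b ∈ B, b i = a ∧ ∀ j, j ≠ i → -b j ∈ F j}}, ?_, ?_⟩
  · intro g
    have hg := fun i => hs i (g i)
    choose af haf huniq using hg
    refine ⟨(fun i => (af i).1, fun i => (af i).2), ⟨fun i => (haf i).1,
      Fintype.mem_piFinset.mpr fun i => (haf i).2.1, funext fun i => (haf i).2.2⟩, ?_⟩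
    rintro ⟨c, φ⟩ ⟨hc, hφ, hsum⟩
    simp only at hφ hsum
    rw [Fintype.mem_piFinset] at hφ
    have hk : ∀ i, (c i, φ i) = af i := fun i =>
      huniq i (c i, φ i) ⟨hc i, hφ i, congrFun hsum i⟩
    refine Prod.ext (funext fun i => ?_) (funext fun i => ?_)
    · exact (Prod.ext_iff.mp (hk i)).1
    · exact (Prod.ext_iff.mp (hk i)).2
  · have hN : (∏ i, P i) ≠ 0 := (Finset.prod_pos fun i _ => hPpos i).ne'
    refine isPeriodic_of_smul (∏ i, P i) hN fun y a ha i => ?_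
    obtain ⟨q, hq⟩ : P i ∣ ∏ i, P i := Finset.dvd_prod_of_mem _ (Finset.mem_univ i)
    have e : (a + (∏ i, P i) • y) i = a i + (q * y i) * P i := by
      simp only [Pi.add_apply, Pi.smul_apply, smul_eq_mul]
      rw [hq]; ring
    rw [e]
    exact (period_mul (hP i) (q * y i) (a i)).mp (ha i)

end brick

end Vale.Agent.Helper27.ProductTile
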